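import Vale.Agent.P066.G.Ham
import Vale.Agent.P066.Defs

/-!
P066 part G, file Coef (TASK G7): coefficients of products of Hamiltonians.
* `hamP_eq`: induction on `M` (`List.ofFn_succ`, `Fin.consEquiv` / `Fin.consInduction`, `mono_mul`).
* `hamP_comm`: all `om` vanish; `∑ c, t (S c) = ∑ s, ν s • t s` iff every `s` lies in exactly `ν s` of
  the `S c` (dual functionals).  Transposing, `S' s = {c | s ∈ S c}` has `ν s` elements; expanding
  `∏ s, esymm (ν s)` (`esymm_eq_sum_monomial`, `Finset.prod_univ_sum`) the coefficient of `x^μ` counts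
  the same `0/1` matrices.
* `hamP_graph`: `∑ c, t (S c) = ∑ v, t (emb v)` iff the `S c` partition the image of `emb`, i.e. come
  from a colouring `f` by `S c = emb '' (f ⁻¹ c)`; independence means properness; the exponent is
  `∑ v w with f v < f w, om (t (emb v)) (t (emb w)) = asc - desc = 2 asc - |E|`.
-/

namespace Vale.Agent.P066.G
open Vale.Agent.P066.S Finset
noncomputable section
open Classical

variable {N : Type} [AddCommGroup N] [QL N] {ι : Type} [Fintype ι] {C : Cone N} {M : ℕ}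

theorem hamP_eq (t : ι → N) (μ : Fin M → ℕ) : hamP C t μ =
    ∑ S ∈ univ.filter (fun S : Fin M → Finset ι => ∀ c, Ind t (S c) ∧ (S c).card = μ c),
      mono C (∑ c, ∑ a ∈ S c, t a)
        (U (∑ c, ∑ c' ∈ Ioi c, om (∑ a ∈ S c, t a) (∑ a ∈ S c', t a))) := by
  induction M with
  | zero => simp [hamP, U_zero, mono_zero_one]
  | succ M ih =>
    have e : hamP C t μ = ham C t (μ 0) * hamP C t fun c => μ c.succ := by
      simp [hamP, List.ofFn_succ]
    rw [e, ih, ham, sum_mul_sum, ← sum_product']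
    refine Finset.sum_equiv (Fin.consEquiv fun _ => Finset ι) (fun S => ?_) fun S _ => ?_
    · simp [Fin.forall_fin_succ, Fin.consEquiv]
    · rw [mono_mul, mul_one, ← U_add]
      simp [Fin.consEquiv, Fin.sum_univ_succ, Fin.sum_Ioi_succ, om]

theorem hamP_fn (t : ι → N) (μ : Fin M → ℕ) (x : N) : (hamP C t μ).fn x =
    ∑ S ∈ univ.filter (fun S : Fin M → Finset ι => (∀ c, Ind t (S c) ∧ (S c).card = μ c) ∧
      x = ∑ c, ∑ a ∈ S c, t a),
        U (∑ c, ∑ c' ∈ Ioi c, om (∑ a ∈ S c, t a) (∑ a ∈ S c', t a)) := by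
  rw [hamP_eq, L.sum_fn, ← Finset.filter_filter, Finset.sum_filter (fun S => x = _)]
  exact Finset.sum_congr rfl fun S _ => by simp only [mono_fn, dl]

/-- transposed family of sets -/
def tp {α β : Type} [Fintype α] (S : α → Finset β) (b : β) : Finset α :=
  univ.filter fun a => b ∈ S a

theorem mem_tp {α β : Type} [Fintype α] {S : α → Finset β} {a : α} {b : β} :
    a ∈ tp S b ↔ b ∈ S a := by simp [tp]

theorem tp_tp {α β : Type} [Fintype α] [Fintype β] (S : α → Finset β) : tp (tp S) = S := by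
  ext a b
  rw [mem_tp, mem_tp]

theorem sum_tp {α β A : Type} [Fintype α] [Fintype β] [AddCommMonoid A] (S : α → Finset β)
    (t : β → A) : ∑ a, ∑ b ∈ S a, t b = ∑ b, (tp S b).card • t b := by
  rw [Finset.sum_comm' (t' := univ) (s' := tp S) fun a b => by simp [mem_tp]]
  simp only [Finset.sum_const]

omit [QL N] in
theorem comb_inj {t : ι → N} {co : ι → N →+ ℤ} (h1 : ∀ a, co a (t a) = 1)
    (h0 : ∀ a b, a ≠ b → co a (t b) = 0) {ν ν' : ι → ℕ}
    (h : ∑ s, ν s • t s = ∑ s, ν' s • t s) (a : ι) : ν a = ν' a := by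
  have key : ∀ ν : ι → ℕ, co a (∑ s, ν s • t s) = ν a := fun ν => by
    rw [map_sum, Finset.sum_eq_single a (fun b _ hb => by rw [map_nsmul, h0 a b hb.symm, smul_zero])
      (by simp), map_nsmul, h1, nsmul_one]
  exact_mod_cast (key ν).symm.trans (h ▸ key ν')

theorem sum_single_tp {α : Type} [Fintype α] (S : α → Finset (Fin M)) (c : Fin M) :
    (∑ a, ∑ i ∈ S a, Finsupp.single i 1 : Fin M →₀ ℕ) c = (tp S c).card := by
  rw [sum_tp, Finsupp.finsetSum_apply, Finset.sum_eq_single c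
    (fun b _ hb => by simp [Finsupp.single_eq_of_ne hb.symm]) (by simp)]
  simp

theorem hamP_comm (t : ι → N) (co : ι → N →+ ℤ) (h1 : ∀ a, co a (t a) = 1)
    (h0 : ∀ a b, a ≠ b → co a (t b) = 0) (hom : ∀ a b, om (t a) (t b) = 0) (μ : Fin M →₀ ℕ)
    (ν : ι → ℕ) : (hamP C t μ).fn (∑ s, ν s • t s) =
      ((MvPolynomial.coeff μ (∏ s, MvPolynomial.esymm (Fin M) ℤ (ν s)) : ℤ) : K) := by
  have hz : ∀ S S' : Finset ι, om (∑ a ∈ S, t a) (∑ a ∈ S', t a) = 0 := fun S S' => by
    simp only [om, map_sum, AddMonoidHom.finsetSum_apply]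
    exact sum_eq_zero fun _ _ => sum_eq_zero fun _ _ => hom _ _
  simp only [hamP_fn, hz, sum_const_zero, U_zero, MvPolynomial.esymm_eq_sum_monomial,
    prod_univ_sum, ← MvPolynomial.monomial_sum_one, MvPolynomial.coeff_sum,
    MvPolynomial.coeff_monomial, sum_boole, sum_const, nsmul_one, Int.cast_natCast]
  congr 1
  refine card_nbij' tp tp (fun S hS => ?_) (fun S hS => ?_) (fun S _ => tp_tp S) fun S _ => tp_tp S
  · obtain ⟨a1, a2⟩ := (mem_filter.1 hS).2
    refine mem_filter.2 ⟨Fintype.mem_piFinset.2 fun s => mem_powersetCard_univ.2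
      (comb_inj h1 h0 (a2.trans (sum_tp S t)) s).symm, Finsupp.ext fun c => ?_⟩
    rw [sum_single_tp, tp_tp, (a1 c).2]
  · obtain ⟨a1, a2⟩ := mem_filter.1 hS
    refine mem_filter.2 ⟨mem_univ _, fun c => ⟨fun a _ b _ => hom a b, ?_⟩, ?_⟩
    · rw [← a2, sum_single_tp]
    · rw [sum_tp, tp_tp]
      exact sum_congr rfl fun s _ => by rw [mem_powersetCard_univ.1 (Fintype.mem_piFinset.1 a1 s)]

theorem hamP_comm_supp (t : ι → N) (μ : Fin M → ℕ) {x : N} (h : (hamP C t μ).fn x ≠ 0) :
    ∃ ν : ι → ℕ, x = ∑ s, ν s • t s := by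
  rw [hamP_fn] at h
  obtain ⟨S, hS⟩ := nonempty_of_sum_ne_zero h
  exact ⟨_, (mem_filter.1 hS).2.2.trans (sum_tp S t)⟩

/-- content of a colouring -/
def content {n : ℕ} (f : Fin n → Fin M) : Fin M →₀ ℕ := ∑ a, Finsupp.single (f a) 1
def nEdge {n : ℕ} (h : Fin n → Fin n) : ℕ :=
  (univ.filter fun p : Fin n × Fin n => Edge h p.1 p.2).card

/-- colour classes -/
def cls {n : ℕ} (emb : Fin n ↪ ι) (f : Fin n → Fin M) (c : Fin M) : Finset ι :=
  (univ.filter fun v => f v = c).map emb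

omit [Fintype ι] in
theorem mem_cls {n : ℕ} {emb : Fin n ↪ ι} {f : Fin n → Fin M} {c : Fin M} {v : Fin n} :
    emb v ∈ cls emb f c ↔ f v = c := by simp [cls]

omit [Fintype ι] in
theorem card_cls {n : ℕ} (emb : Fin n ↪ ι) (f : Fin n → Fin M) (c : Fin M) :
    (cls emb f c).card = content f c := by
  rw [cls, card_map, content, Finsupp.finsetSum_apply, card_filter]
  simp only [Finsupp.single_apply]

omit [Fintype ι] in
theorem om_emb {t : ι → N} {n : ℕ} {h : Fin n → Fin n} {emb : Fin n ↪ ι}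
    (hom : ∀ v w, v < w → om (t (emb v)) (t (emb w)) = if Edge h v w then 1 else 0) (v w : Fin n) :
    om (t (emb v)) (t (emb w)) = (if Edge h v w then 1 else 0) - if Edge h w v then 1 else 0 := by
  rcases lt_trichotomy v w with e | rfl | e
  · rw [hom v w e, if_neg fun e' : Edge h w v => e'.1.not_gt e, sub_zero]
  · rw [om_self, sub_self]
  · rw [om_skew, hom w v e, if_neg fun e' : Edge h v w => e'.1.not_gt e, zero_sub]

omit [Fintype ι] in
theorem ind_cls {t : ι → N} {n : ℕ} {h : Fin n → Fin n} {emb : Fin n ↪ ι}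
    (hom : ∀ v w, v < w → om (t (emb v)) (t (emb w)) = if Edge h v w then 1 else 0)
    (f : Fin n → Fin M) : (∀ c, Ind t (cls emb f c)) ↔ Proper h f := by
  refine ⟨fun H v w e e' => ?_, fun H c a ha b hb => ?_⟩
  · have := H (f w) _ (mem_cls.2 e') _ (mem_cls.2 rfl)
    rw [hom v w e.1, if_pos e] at this
    exact one_ne_zero this
  · obtain ⟨v, hv, rfl⟩ := mem_map.1 ha
    obtain ⟨w, hw, rfl⟩ := mem_map.1 hb
    have e := (mem_filter.1 hv).2.trans (mem_filter.1 hw).2.symm
    rw [om_emb hom, if_neg fun e' => H v w e' e, if_neg fun e' => H w v e' e.symm, sub_self]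

omit [Fintype ι] in
theorem expo_cls {t : ι → N} {n : ℕ} {h : Fin n → Fin n} {emb : Fin n ↪ ι}
    (hom : ∀ v w, v < w → om (t (emb v)) (t (emb w)) = if Edge h v w then 1 else 0)
    {f : Fin n → Fin M} (hf : Proper h f) :
    ∑ c, ∑ c' ∈ Ioi c, om (∑ a ∈ cls emb f c, t a) (∑ a ∈ cls emb f c', t a) =
      2 * (asc h f : ℤ) - nEdge h := by
  have e1 : ∑ c, ∑ c' ∈ Ioi c, om (∑ a ∈ cls emb f c, t a) (∑ a ∈ cls emb f c', t a) =
      ∑ v, ∑ w, if f v < f w then om (t (emb v)) (t (emb w)) else 0 := by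
    rw [← Finset.sum_fiberwise univ f]
    refine Finset.sum_congr rfl fun c _ => ?_
    simp only [cls, sum_map, om]
    rw [← map_sum, Finset.sum_fiberwise_eq_sum_filter, map_sum (QL.om (N := N)),
      AddMonoidHom.finsetSum_apply]
    refine Finset.sum_congr rfl fun v hv => ?_
    rw [map_sum, sum_filter, (mem_filter.1 hv).2]
    simp only [mem_Ioi]
  have e2 : ∑ v, ∑ w, (if Edge h w v ∧ f v < f w then 1 else 0 : ℤ) =
      ∑ v, ∑ w, if Edge h v w ∧ f w < f v then 1 else 0 := Finset.sum_comm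
  have e3 : ∀ v w, (if f v < f w then om (t (emb v)) (t (emb w)) else 0) =
      (if Edge h v w ∧ f v < f w then 1 else 0) - if Edge h w v ∧ f v < f w then 1 else 0 := by
    intro v w
    by_cases e : f v < f w <;> simp [e, om_emb hom]
  have e4 : ∀ v w, (if Edge h v w ∧ f w < f v then 1 else 0 : ℤ) =
      (if Edge h v w then 1 else 0) - if Edge h v w ∧ f v < f w then 1 else 0 := by
    intro v w
    by_cases e : Edge h v w
    · rcases lt_or_gt_of_ne (hf v w e) with e' | e' <;> simp [e, e', e'.not_gt]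
    · simp [e]
  simp only [e1, e3, sum_sub_distrib]
  rw [e2]
  simp only [e4, sum_sub_distrib, asc, nEdge, card_filter, Fintype.sum_prod_type]
  push_cast
  ring

theorem hamP_graph (t : ι → N) (co : ι → N →+ ℤ) (h1 : ∀ a, co a (t a) = 1)
    (h0 : ∀ a b, a ≠ b → co a (t b) = 0) {n : ℕ} (h : Fin n → Fin n) (emb : Fin n ↪ ι)
    (hom : ∀ v w, v < w → om (t (emb v)) (t (emb w)) = if Edge h v w then 1 else 0)
    (μ : Fin M →₀ ℕ) : (hamP C t μ).fn (∑ v, t (emb v)) =
      ∑ f ∈ univ.filter (fun f : Fin n → Fin M => Proper h f ∧ content f = μ),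
        U (2 * (asc h f : ℤ) - nEdge h) := by
  rw [hamP_fn]
  refine (Finset.sum_bij (fun f _ => cls emb f) (fun f hf => ?_) (fun f _ g _ e => ?_)
    (fun S hS => ?_) fun f hf => ?_).symm
  · obtain ⟨a1, a2⟩ := (mem_filter.1 hf).2
    refine mem_filter.2 ⟨mem_univ _, fun c => ⟨(ind_cls hom f).2 a1 c, by rw [card_cls, a2]⟩, ?_⟩
    simp only [cls, sum_map]
    exact (Finset.sum_fiberwise univ f _).symm
  · exact funext fun v => (mem_cls.1 (e ▸ mem_cls.2 rfl : emb v ∈ cls emb g (f v))).symm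
  · obtain ⟨a1, a2⟩ := (mem_filter.1 hS).2
    have a3 : ∀ s, (if s ∈ univ.map emb then 1 else 0) = (tp S s).card := by
      refine comb_inj h1 h0 (Eq.trans ?_ (a2.trans (sum_tp S t)))
      simp only [ite_smul, one_smul, zero_smul, sum_ite_mem, univ_inter, sum_map]
    choose f hf using fun v => card_eq_one.1 ((a3 (emb v)).symm.trans (if_pos (by simp)))
    have e : cls emb f = S := by
      ext c s
      by_cases hs : s ∈ univ.map emb
      · obtain ⟨v, -, rfl⟩ := mem_map.1 hs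
        rw [mem_cls, ← mem_tp, hf, mem_singleton, eq_comm]
      · rw [← mem_tp (S := S), card_eq_zero.1 ((a3 s).symm.trans (if_neg hs))]
        exact iff_of_false (fun h => hs (map_subset_map.2 (subset_univ _) h)) (notMem_empty _)
    subst e
    exact ⟨f, mem_filter.2 ⟨mem_univ _, (ind_cls hom f).1 fun c => (a1 c).1,
      Finsupp.ext fun c => (card_cls emb f c).symm.trans (a1 c).2⟩, rfl⟩
  · rw [expo_cls hom (mem_filter.1 hf).2.1]

end
end Vale.Agent.P066.G
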