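import Vale.Agent.P066.G.Frame

/-!
P066 part G, file Escape (definitions final; lemmas = TASK G5).  The orbit of seeds.
* `alpha_step`, `phi_step`, `mid_step`: `mut_move`, `sq_move` (`T.step`, `Ok` from `T.lt`, `T.ge`),
  `exists_E`, `sqP1`, `sqP2`, then `alpha_mut`, `m2`, `m1_fn`.
* `escape`: since every `mu k` is bijective there is `A : ℤ → N` with `A 0 = a`,
  `A (τ+1) = mu (k τ) (A τ)`; `alpha` is constant along it (`Int.induction_on`), so
  `A τ - n • y 0 ∈ P τ` (`cj_supp`, `F_supp`) and `lam i u (A τ) ≤ n` for `u ∈ [s τ i, s τ i + r]`.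
  `P τ = rho i (A τ)` is nondecreasing (`rho_kv`), and `Φ τ = ∑ p < r, lam i (s τ i + p) (A τ) ≤ r n`
  satisfies `Φ (τ+1) = Φ τ + (s (τ+1) i - s τ i) * P τ` (`lam_kv`, `lam_kv_ne`, `lam_shift`).  If
  `P τ1 > 0` then `Φ (τ1 + j m) ≥ Φ τ1 + j`; if `P τ1 < 0` then `Φ (τ1 - j m) ≥ Φ τ1 + j`; both are
  impossible.  So `P = 0` always, `max (om (k τ) (A τ)) 0 = 0`, and `A τ = a` for all `τ`.
-/

namespace Vale.Agent.P066.G
open Vale.Agent.P066.S Finset
noncomputable section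
open Classical

variable {N : Type} [AddCommGroup N] [QL N] {m r M : ℕ} (Mo : Model m r N) (T : Time m)

abbrev Model.D (τ : ℤ) : Diag N := (Mo.seed (T.s τ)).diag
abbrev Model.k (τ : ℤ) : N := Mo.kv (T.s τ) (T.b τ)
abbrev Model.F (μ : Fin M → ℕ) (τ : ℤ) : L (Mo.D T τ).C := hamP (Mo.D T τ).C (Mo.fr (T.s τ)) μ

variable {Mo T}

theorem F_supp (μ : Fin M → ℕ) (τ : ℤ) (x : N) (h : (Mo.F T μ τ).fn x ≠ 0) :
    x - (∑ c, μ c) • Mo.y 0 ∈ (Mo.D T τ).C.P :=
  hamP_supp (fun a => Mo.frame_sub_mem _ a) μ x h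

theorem mut_step (hr : 0 < r) (τ : ℤ) :
    ∃ π, Mut (Mo.D T τ) (Mo.D T (τ + 1)) (Mo.k T τ) π := by
  have h := Mo.mut_move hr (s := T.s τ) (i := T.b τ) ⟨T.lt τ, T.ge τ⟩
  rwa [← T.step] at h

theorem sq_step (hr : 0 < r) (τ : ℤ) :
    Sq (Mo.fr (T.s τ)) (Mo.fr (T.s (τ + 1))) (Mo.k T τ) := by
  have h := Mo.sq_move hr (s := T.s τ) (i := T.b τ) ⟨T.lt τ, T.ge τ⟩
  rwa [← T.step] at h

theorem alpha_step (hr : 0 < r) (μ : Fin M → ℕ) (τ : ℤ) (a : N) :
    alpha (Mo.D T (τ + 1)).g (Mo.F T μ (τ + 1)) (mu (Mo.k T τ) a) =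
      alpha (Mo.D T τ).g (Mo.F T μ τ) a := by
  obtain ⟨π, hm⟩ := mut_step (Mo := Mo) (T := T) hr τ
  obtain ⟨E, hE⟩ := exists_E hm.kP hm.k_ne
  obtain ⟨E', hE'⟩ := exists_E hm.kP' (neg_ne_zero.2 hm.k_ne)
  exact alpha_mut hm hE hE' (sqP1 (sq_step hr τ) hE μ) (sqP2 (sq_step hr τ) hE' μ) a
theorem phi_step (hr : 0 < r) (μ : Fin M → ℕ) (τ : ℤ) {σ : Sg N} (hσ : Gen σ 0)
    (hk : σ.neg (Mo.k T τ)) : (phi σ (Mo.D T (τ + 1)).g (Mo.F T μ (τ + 1))).fn =
      (phi σ (Mo.D T τ).g (Mo.F T μ τ)).fn := by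
  obtain ⟨π, hm⟩ := mut_step (Mo := Mo) (T := T) hr τ
  obtain ⟨E, hE⟩ := exists_E hm.kP hm.k_ne
  exact m2 hm hE (sqP1 (sq_step hr τ) hE μ) hσ hk
theorem mid_step (hr : 0 < r) (τ : ℤ) {σ : Sg N} {d : N} (hσ : Gen σ d)
    (hk : σ.neg (Mo.k T τ)) : (mid σ (Mo.D T (τ + 1)).g).fn = (mid σ (Mo.D T τ).g).fn := by
  obtain ⟨π, hm⟩ := mut_step (Mo := Mo) (T := T) hr τ
  exact m1_fn hm hσ hk

theorem exists_orbit {X : Type} (f : ℤ → X → X) (hf : ∀ τ, Function.Surjective (f τ)) (a : X) :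
    ∃ A : ℤ → X, A 0 = a ∧ ∀ τ, A (τ + 1) = f τ (A τ) := by
  let P : ℕ → X := fun n => Nat.rec a (fun n x => f n x) n
  let Q : ℕ → X := fun n => Nat.rec a (fun n x => Function.surjInv (hf (Int.negSucc n)) x) n
  refine ⟨fun τ => match τ with
    | Int.ofNat n => P n
    | Int.negSucc n => Q (n + 1), rfl, fun τ => ?_⟩
  rcases τ with n | (_ | n)
  · rfl
  · exact (Function.surjInv_eq (hf (Int.negSucc 0)) a).symm
  · exact (Function.surjInv_eq (hf (Int.negSucc (n + 1))) (Q (n + 1))).symm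

theorem int_const {X : Type} {g : ℤ → X} (h : ∀ τ, g (τ + 1) = g τ) (τ : ℤ) : g τ = g 0 := by
  induction τ using Int.induction_on with
  | zero => rfl
  | succ n ih => rw [h, ih]
  | pred n ih => rw [← ih, ← h, sub_add_cancel]

theorem int_mono {g : ℤ → ℤ} {a b : ℤ} (hab : a ≤ b)
    (h : ∀ τ, a ≤ τ → τ < b → g τ ≤ g (τ + 1)) : g a ≤ g b := by
  induction b, hab using Int.leInduction with
  | base => exact le_rfl
  | succ n hn ih =>
    exact (ih fun τ h1 h2 => h τ h1 (by omega)).trans (h n hn (by omega))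

theorem rate_zero {P Φ s : ℤ → ℤ} {B : ℤ} {m : ℕ} (hP : ∀ τ, P τ ≤ P (τ + 1))
    (hs : ∀ τ, s τ ≤ s (τ + 1)) (hΦ : ∀ τ, Φ (τ + 1) = Φ τ + (s (τ + 1) - s τ) * P τ)
    (hB : ∀ τ, Φ τ ≤ B) (hper : ∀ τ j, s (τ + j * m) = s τ + j) (τ : ℤ) : P τ = 0 := by
  have hj : 0 ≤ (B - Φ τ + 1) * m := mul_nonneg (by linarith [hB τ]) (by positivity)
  rcases lt_trichotomy (P τ) 0 with h | h | h
  · have := int_mono (g := fun u => -Φ u - s u) (a := τ + -(B - Φ τ + 1) * m) (b := τ)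
      (by linarith) fun u _ h2 => by
        have h3 : P u ≤ P τ := int_mono h2.le fun v _ _ => hP v
        have h4 := hs u
        rw [hΦ]
        nlinarith
    rw [hper] at this
    linarith [hB (τ + -(B - Φ τ + 1) * m)]
  · exact h
  · have := int_mono (g := fun u => Φ u - s u) (a := τ) (b := τ + (B - Φ τ + 1) * m)
      (by linarith) fun u h1 _ => by
        have h3 : P τ ≤ P u := int_mono h1 fun v _ _ => hP v
        have h4 := hs u
        rw [hΦ]
        nlinarith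
    rw [hper] at this
    linarith [hB (τ + (B - Φ τ + 1) * m)]

theorem escape (hr : 0 < r) (μ : Fin M → ℕ) {a : N}
    (h : alpha (Mo.D T 0).g (Mo.F T μ 0) a ≠ 0) (τ : ℤ) : om (Mo.k T τ) a ≤ 0 := by
  obtain ⟨A, hA0, hA⟩ := exists_orbit (fun τ => mu (Mo.k T τ)) (fun τ => mu_surj _) a
  have hal : ∀ τ, alpha (Mo.D T τ).g (Mo.F T μ τ) (A τ) ≠ 0 := fun τ => by
    rw [int_const (g := fun τ => alpha (Mo.D T τ).g (Mo.F T μ τ) (A τ))
      (fun τ => by rw [hA, alpha_step hr]) τ, hA0]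
    exact h
  have hlam : ∀ τ i u, T.s τ i ≤ u → u ≤ T.s τ i + r →
      Mo.lam i u (A τ) ≤ (∑ c, μ c : ℕ) := by
    intro τ i u h1 h2
    have := Model.lam_nonpos (cj_supp _ (F_supp μ τ) _ (hal τ)) i h1 h2
    rw [map_sub, map_nsmul, Mo.lam_y, if_pos (Fin.zero_le _), nsmul_one] at this
    linarith
  have hap : ∀ τ (η : N →+ ℤ),
      η (A (τ + 1)) = η (A τ) + max (om (Mo.k T τ) (A τ)) 0 * η (Mo.k T τ) := fun τ η => by
    rw [hA, mu, map_add, map_zsmul, smul_eq_mul]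
  have hrho : ∀ i τ, Mo.rho i (A τ) = 0 := fun i =>
    rate_zero (Φ := fun τ => ∑ p ∈ range r, Mo.lam i (T.s τ i + p) (A τ))
      (s := fun τ => T.s τ i) (B := r * (∑ c, μ c : ℕ)) (m := m)
      (fun τ => by
        rw [hap, Model.rho_kv]
        have := le_max_right (om (Mo.k T τ) (A τ)) 0
        split_ifs <;> linarith)
      (fun τ => T.mono (by omega) i)
      (fun τ => by
        simp only [hap]
        by_cases hi : i = T.b τ
        · have e : T.s (τ + 1) i = T.s τ i + 1 := by rw [T.step, hi, Function.update_self]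
          have e1 := sum_range_succ (fun p : ℕ => Mo.lam i (T.s τ i + p) (A τ)) r
          rw [sum_range_succ', Mo.lam_shift] at e1
          have e2 : ∀ p ∈ range r, Mo.lam i (T.s τ i + 1 + p) (A τ)
              + max (om (Mo.k T τ) (A τ)) 0 * Mo.lam i (T.s τ i + 1 + p) (Mo.k T τ)
              = Mo.lam i (T.s τ i + (p + 1 : ℕ)) (A τ) := by
            intro p hp
            rw [mem_range] at hp
            rw [Model.k, ← hi, Model.lam_kv _ _ (by omega) (by omega), mul_zero, add_zero,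
              Nat.cast_succ, add_right_comm, add_assoc]
          rw [e, sum_congr rfl e2]
          simp only [Nat.cast_zero, add_zero] at e1
          linarith
        · have e : T.s (τ + 1) i = T.s τ i := by rw [T.step, Function.update_of_ne hi]
          simp [e, Model.lam_kv_ne _ hi])
      (fun τ => by
        have := sum_le_card_nsmul (range r) (fun p : ℕ => Mo.lam i (T.s τ i + p) (A τ))
          (∑ c, μ c : ℕ) fun p hp => hlam τ i _ (by omega) (by
            rw [mem_range] at hp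
            omega)
        rwa [card_range, nsmul_eq_mul] at this)
      (fun τ j => T.per_mul τ j i)
  have hc : ∀ τ, max (om (Mo.k T τ) (A τ)) 0 = 0 := fun τ => by
    have := hap τ (Mo.rho (T.b τ))
    rw [hrho, hrho, Model.rho_kv, if_pos rfl] at this
    linarith
  have hconst := int_const (g := A) (fun τ => by rw [hA, mu, hc, zero_smul, add_zero]) τ
  have := hc τ
  rw [hconst, hA0] at this
  exact max_eq_right_iff.1 this

end
end Vale.Agent.P066.G
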