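import Vale.Agent.P066.G.LemL
import Vale.Agent.P066.G.Coef

/-!
P066 part G, file Expand (TASK G8): embedding of `G(h)` and the expansion over Laurent series.
* `exists_pos`: induction on the number `w` of placed vertices (state it for functions on `ℕ` or on
  `Fin n` restricted to `v < w`): double all positions and `r`; if some `v < w` has `w ≤ h v`, let `v0`
  be the least one and put `P w = 2 (P v0 + r) - 1`, otherwise `P w = 2 P (w-1) + 2 r`.
* `expansion`: take `m` larger than all `P v / r` (and positive), a model, a time function, and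
  `emb v = inr (P v / r, P v % r)`; in the frame at time `0` (`T.s_zero`),
  `om (t v) (t w) = [P w < P v + r]` for `v < w` (`om_qq`, `om_qq_next`, `om_qq_far`).  Apply `p2` to the
  seed at time `0` (`Seed.inPos`) with `g0 = n • y 0`, `b = ∑ v, t (emb v)`,
  `σ = (ofHom deg).lex zeta` (so `phi σ = id` by `lo_of_pos`), giving `β0`.  For `μ` of degree `n`:
  `hamP_graph`, `F_supp`; terms with `a` not good vanish by `escape`; for good `a` use `lemL`,
  `hamP_comm_supp`, `hamP_comm`.  `J = N`, `A` = good points of the support of the form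
  `∑ ν s • y s`, `l a` = the multiset of the values of a chosen `ν`, `β a = U |E| * β0 a`.
-/

namespace Vale.Agent.P066.G
open Vale.Agent.P066.S Finset
noncomputable section
open Classical

theorem exists_pos_aux (H : ℕ → ℕ) (n : ℕ) (hH : ∀ u v, u ≤ v → v < n → H u ≤ H v) :
    ∀ w, w ≤ n → ∃ (r : ℕ) (P : ℕ → ℕ), 0 < r ∧
      ∀ u v, u < v → v < w → P u < P v ∧ (P v < P u + r ↔ v ≤ H u) := by
  intro w
  induction w with
  | zero => exact fun _ => ⟨1, fun _ => 0, one_pos, fun u v _ h => absurd h (Nat.not_lt_zero v)⟩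
  | succ w ih =>
    intro hw
    obtain ⟨r, P, hr, hP⟩ := ih (by omega)
    have key : ∃ x, ∀ u, u < w → 2 * P u < x ∧ (x < 2 * P u + 2 * r ↔ w ≤ H u) := by
      by_cases hex : ∃ v, v < w ∧ w ≤ H v
      · have h0 := Nat.find_spec hex
        have hmin : ∀ u, u < Nat.find hex → ¬ (u < w ∧ w ≤ H u) := fun u hu => Nat.find_min hex hu
        generalize Nat.find hex = v0 at h0 hmin
        refine ⟨2 * (P v0 + r) - 1, fun u hu => ?_⟩
        rcases lt_trichotomy u v0 with h1 | h1 | h1
        · have h2 := (hP u v0 h1 h0.1).1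
          have h3 := hmin u h1
          constructor
          · omega
          · constructor
            · omega
            · intro h4; exact absurd ⟨hu, h4⟩ h3
        · subst h1
          have := h0.2
          omega
        · obtain ⟨h2, h3⟩ := hP v0 u h1 hu
          have h4 := h3.2 (by omega)
          have h5 := hH v0 u h1.le (by omega)
          omega
      · refine ⟨2 * (∑ u ∈ range w, P u) + 2 * r, fun u hu => ?_⟩
        have h1 : P u ≤ ∑ u ∈ range w, P u :=
          single_le_sum (f := P) (fun _ _ => Nat.zero_le _) (mem_range.2 hu)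
        constructor
        · omega
        · constructor
          · omega
          · intro h4; exact absurd ⟨u, hu, h4⟩ hex
    obtain ⟨x, hx⟩ := key
    refine ⟨2 * r, fun v => if v < w then 2 * P v else x, by omega, fun u v huv hv => ?_⟩
    have hu : u < w := by omega
    by_cases h1 : v < w
    · obtain ⟨h2, h3⟩ := hP u v huv h1
      simp only [hu, h1, if_true]
      omega
    · have h2 : v = w := by omega
      subst h2
      simp only [hu, h1, if_true, if_false]
      exact hx u hu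

theorem exists_pos {n : ℕ} (h : Fin n → Fin n) (hm : Monotone h) (hi : ∀ i, i ≤ h i) :
    ∃ (r : ℕ) (P : Fin n → ℕ), 0 < r ∧ StrictMono P ∧
      ∀ v w, v < w → (P w < P v + r ↔ w ≤ h v) := by
  obtain ⟨r, P, hr, hP⟩ := exists_pos_aux (fun i => if hi : i < n then (h ⟨i, hi⟩).val else 0) n
    (fun u v huv hv => by
      simp only [hv, huv.trans_lt hv, dif_pos]
      exact hm (show (⟨u, huv.trans_lt hv⟩ : Fin n) ≤ ⟨v, hv⟩ from huv)) n le_rfl
  refine ⟨r, fun v => P v, hr, fun u v huv => (hP u v huv v.2).1, fun u v huv => ?_⟩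
  have h1 := (hP u v huv v.2).2
  simp only [u.2, dif_pos] at h1
  exact h1

theorem om_pos {N : Type} [AddCommGroup N] [QL N] {m r : ℕ} (Mo : Model m r N) (hr : 0 < r)
    {x x' : ℕ} (hx : x < x') (i j : Fin m) (hi : i.val = x / r) (hj : j.val = x' / r) :
    om (Mo.q i ((x % r : ℕ) : ℤ)) (Mo.q j ((x' % r : ℕ) : ℤ)) = if x' < x + r then 1 else 0 := by
  have e1 := Nat.div_add_mod x r
  have e2 := Nat.div_add_mod x' r
  have b1 := Nat.mod_lt x hr
  have b2 := Nat.mod_lt x' hr
  have hle : i.val ≤ j.val := by rw [hi, hj]; exact Nat.div_le_div_right hx.le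
  rw [← hi] at e1
  rw [← hj] at e2
  generalize x % r = c at *
  generalize x' % r = c' at *
  rcases hle.eq_or_lt with h1 | h1
  · have h2 : i = j := Fin.ext h1
    subst h2
    rw [Mo.om_qq i _ _ (by omega) (by omega), if_pos (by omega)]
  · by_cases h2 : j.val = i.val + 1
    · rw [Mo.om_qq_next i j _ _ h2 (by omega) (by omega)]
      rw [h2, Nat.mul_add, mul_one] at e2
      exact if_congr (by omega) rfl rfl
    · have h3 : r * (i.val + 2) ≤ r * j.val := Nat.mul_le_mul_left r (by omega)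
      rw [Nat.mul_add] at h3
      rw [Mo.om_qq_far i j _ _ (by omega), if_neg (by omega)]

theorem expansion {n : ℕ} (h : Fin n → Fin n) (hm : Monotone h) (hi : ∀ i, i ≤ h i) :
    ∃ (J : Type) (A : Finset J) (l : J → Multiset ℕ) (β : J → K), (∀ j, β j ∈ Kpos) ∧
      ∀ (M : ℕ) (μ : Fin M →₀ ℕ), μ.degree = n →
        ∑ f ∈ univ.filter (fun f : Fin n → Fin M => Proper h f ∧ content f = μ),
          U (2 * (asc h f : ℤ)) =
        ∑ j ∈ A, β j * ((MvPolynomial.coeff μ
          ((l j).map (MvPolynomial.esymm (Fin M) ℤ)).prod : ℤ) : K) := by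
  obtain ⟨r, P, hr, hP, hPh⟩ := exists_pos h hm hi
  have hlt : ∀ v, P v / r < ∑ v, P v + 1 := fun v => Nat.lt_succ_of_le
    ((Nat.div_le_self _ _).trans (single_le_sum (f := P) (fun _ _ => Nat.zero_le _) (mem_univ v)))
  generalize hm' : ∑ v, P v + 1 = m at hlt
  obtain ⟨N, i1, i2, ⟨Mo⟩⟩ := exists_model m r hr
  obtain ⟨T⟩ := exists_time (m := m) (by omega)
  let emb : Fin n ↪ Ix m r := ⟨fun v => Sum.inr (⟨P v / r, hlt v⟩, ⟨P v % r, Nat.mod_lt _ hr⟩),
    fun v w hvw => by
      simp only [Sum.inr.injEq, Prod.mk.injEq, Fin.mk.injEq] at hvw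
      refine hP.injective ?_
      rw [← Nat.div_add_mod (P v) r, hvw.1, hvw.2, Nat.div_add_mod]⟩
  have hq : ∀ i (c : Fin r), Mo.fr (T.s 0) (Sum.inr (i, c)) = Mo.q i c := by
    intro i c
    simp only [Model.fr, T.s_zero, zero_add]
  have hco : ∀ a b, Mo.co a (Mo.fr (T.s 0) b) = if a = b then 1 else 0 := by
    rintro a (j | ⟨i, c⟩)
    · exact Mo.co_y a j
    · rw [hq, Mo.co_q]
  have hom : ∀ v w, v < w → om (Mo.fr (T.s 0) (emb v)) (Mo.fr (T.s 0) (emb w)) =
      if Edge h v w then 1 else 0 := by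
    intro v w hvw
    have h1 := om_pos Mo hr (hP hvw) ⟨P v / r, hlt v⟩ ⟨P w / r, hlt w⟩ rfl rfl
    have h2 := hq ⟨P v / r, hlt v⟩ ⟨P v % r, Nat.mod_lt _ hr⟩
    have h3 := hq ⟨P w / r, hlt w⟩ ⟨P w % r, Nat.mod_lt _ hr⟩
    refine ((congrArg₂ om h2 h3).trans h1).trans (if_congr ?_ rfl rfl)
    rw [hPh v w hvw]
    exact (and_iff_right hvw).symm
  obtain ⟨β, hβ, hβ'⟩ := p2 (Mo.D T 0) (Seed.inPos _) (n • Mo.y 0) (∑ v, Mo.fr (T.s 0) (emb v))
    ((Sg.ofHom (Mo.D T 0).C.deg).lex QL.zeta) (gen_lex_zero gen_zeta)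
  have hlo : lo ((Sg.ofHom (Mo.D T 0).C.deg).lex QL.zeta) (Mo.D T 0).g = 1 := by
    refine lo_of_pos fun p hp => ?_
    by_cases h0 : p = 0
    · exact Or.inl h0
    · exact Or.inr (Sg.lex_pos.2 (Or.inl (Sg.ofHom_pos.2
        ((Mo.D T 0).C.pos p ((Mo.D T 0).g.supp p hp) h0))))
  refine ⟨N, β.support.filter fun a => (∀ τ, om (Mo.k T τ) a ≤ 0) ∧
      ∃ ν : Fin (m + 1) → ℕ, a = ∑ s, ν s • Mo.y s,
    fun a => if h : ∃ ν : Fin (m + 1) → ℕ, a = ∑ s, ν s • Mo.y s then
      univ.val.map (Classical.choose h) else 0,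
    fun a => U (nEdge h) * β a, fun a => Kpos_mul (Kpos_U _) (hβ a), fun M μ hμ => ?_⟩
  have h1 := hβ' (Mo.F T μ 0) fun x hx => by
    have h2 := F_supp μ 0 x hx
    rwa [← Finsupp.degree_eq_sum, hμ] at h2
  rw [phi, hlo, cj_one] at h1
  have h2 := hamP_graph (C := (Mo.D T 0).C) (Mo.fr (T.s 0)) Mo.co
    (fun a => by rw [hco, if_pos rfl]) (fun a b hab => by rw [hco, if_neg hab]) h emb hom μ
  have h3 : ∀ f : Fin n → Fin M, U (2 * (asc h f : ℤ)) =
      U (nEdge h) * U (2 * (asc h f : ℤ) - nEdge h) := by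
    intro f
    rw [← U_add, add_sub_cancel]
  simp only [h3]
  rw [← mul_sum, ← h2, h1, Finsupp.sum, mul_sum]
  symm
  refine sum_subset_zero_on_sdiff (filter_subset _ _) (fun a ha => ?_) fun a ha => ?_
  · have h4 : alpha (Mo.D T 0).g (Mo.F T μ 0) a = 0 := by
      by_contra h5
      have h6 := escape hr μ h5
      rw [lemL hr μ h6] at h5
      exact (mem_sdiff.1 ha).2 (mem_filter.2 ⟨(mem_sdiff.1 ha).1, h6, hamP_comm_supp _ _ h5⟩)
    rw [h4, mul_zero, mul_zero]
  · obtain ⟨-, h4, h5⟩ := mem_filter.1 ha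
    have h6 := hamP_comm (C := (Mo.D T 0).C) Mo.y (fun j => Mo.co (Sum.inl j))
      (fun j => by rw [Mo.co_y, if_pos rfl])
      (fun j j' hj => by rw [Mo.co_y, if_neg fun h => hj (Sum.inl_injective h)]) Mo.om_yy μ
      (Classical.choose h5)
    rw [← Classical.choose_spec h5] at h6
    rw [lemL hr μ h4, h6, dif_pos h5, Multiset.map_map, mul_assoc]
    rfl

end
end Vale.Agent.P066.G
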