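import Vale.Agent.P066.G.Expand

/-!
P066 part G, file Final (TASK G9): descent from Laurent series to `ℕ[q]`.
Group the terms of `expansion` by the partition `Nat.Partition.ofSums`/`ofMultiset` of `l j` (terms
with `(l j).sum ≠ n` have zero coefficient at `μ` of degree `n` by homogeneity of `esymm`; zeros in
`l j` contribute `esymm 0 = 1`): `γ λ ∈ Kpos`.  Take `M = n`, `μ = (1,…,1)`: the coefficient of
`x_1 ⋯ x_n` in `esymmPart λ` is a positive integer and the left side is `p(u^2)`, so every `γ λ` is
supported on finitely many even nonnegative exponents: `γ λ = (c λ)(u^2)` with `c λ ∈ ℤ[q]` having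
nonnegative coefficients.  The ring map `ℤ[q] → K`, `q ↦ U 2` (`Polynomial.aeval`) is injective.
Compare coefficients (`MvPolynomial.ext`); for `μ` of degree `≠ n` both sides vanish.
-/

namespace Vale.Agent.P066.G
open Vale.Agent.P066.S Finset
noncomputable section
open Classical

theorem fin_esymm_hom (M k : ℕ) : (MvPolynomial.esymm (Fin M) ℤ k).IsHomogeneous k := by
  unfold MvPolynomial.esymm
  refine MvPolynomial.IsHomogeneous.sum _ _ _ fun t ht => ?_
  have h1 := MvPolynomial.IsHomogeneous.prod (R := ℤ) t (fun i => MvPolynomial.X i) (fun _ => 1)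
    (fun i _ => MvPolynomial.isHomogeneous_X ℤ i)
  rw [Finset.sum_const, smul_eq_mul, mul_one, (Finset.mem_powersetCard.1 ht).2] at h1
  exact h1

theorem fin_prod_hom (M : ℕ) (l : Multiset ℕ) :
    ((l.map (MvPolynomial.esymm (Fin M) ℤ)).prod).IsHomogeneous l.sum := by
  induction l using Multiset.induction_on with
  | empty => simpa using MvPolynomial.isHomogeneous_one (Fin M) ℤ
  | cons a l ih =>
    rw [Multiset.map_cons, Multiset.prod_cons, Multiset.sum_cons]
    exact (fin_esymm_hom M a).mul ih

theorem fin_prod_filter (M : ℕ) (l : Multiset ℕ) :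
    ((l.filter (· ≠ 0)).map (MvPolynomial.esymm (Fin M) ℤ)).prod =
      (l.map (MvPolynomial.esymm (Fin M) ℤ)).prod := by
  induction l using Multiset.induction_on with
  | empty => simp
  | cons a l ih =>
    by_cases ha : a = 0
    · rw [Multiset.filter_cons_of_neg _ (by simpa using ha), ih, Multiset.map_cons,
        Multiset.prod_cons, ha, MvPolynomial.esymm_zero, one_mul]
    · rw [Multiset.filter_cons_of_pos _ (by simpa using ha), Multiset.map_cons, Multiset.prod_cons,
        ih, Multiset.map_cons, Multiset.prod_cons]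

theorem fin_coeff_zero (M : ℕ) (l : Multiset ℕ) (μ : Fin M →₀ ℕ) (h : μ.degree ≠ l.sum) :
    MvPolynomial.coeff μ (l.map (MvPolynomial.esymm (Fin M) ℤ)).prod = 0 :=
  (fin_prod_hom M l).coeff_eq_zero h

theorem fin_group {n M : ℕ} {J : Type} (A : Finset J) (l : J → Multiset ℕ) (b : J → ℤ)
    (μ : Fin M →₀ ℕ) (hμ : μ.degree = n) :
    ∑ j ∈ A, b j * MvPolynomial.coeff μ ((l j).map (MvPolynomial.esymm (Fin M) ℤ)).prod =
      ∑ p : n.Partition, (∑ j ∈ A.filter (fun j => (l j).filter (· ≠ 0) = p.parts), b j) *
        MvPolynomial.coeff μ (MvPolynomial.esymmPart (Fin M) ℤ p) := by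
  simp_rw [Finset.sum_mul, Finset.sum_filter]
  rw [Finset.sum_comm]
  refine Finset.sum_congr rfl fun j _ => ?_
  by_cases hs : (l j).sum = n
  · rw [Finset.sum_eq_single (Nat.Partition.ofSums n (l j) hs)]
    · rw [if_pos (by rfl)]
      unfold MvPolynomial.esymmPart
      rw [show (Nat.Partition.ofSums n (l j) hs).parts = (l j).filter (· ≠ 0) from rfl,
        fin_prod_filter]
    · intro p _ hp
      rw [if_neg]
      intro hc
      exact hp (Nat.Partition.ext hc.symm)
    · intro hc
      exact absurd (Finset.mem_univ _) hc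
  · rw [fin_coeff_zero M _ μ (by rw [hμ]; exact fun hc => hs hc.symm), mul_zero]
    symm
    refine Finset.sum_eq_zero fun p _ => ?_
    rw [if_neg]
    intro hc
    apply hs
    rw [← p.parts_sum, ← hc]
    conv_lhs => rw [← Multiset.filter_add_not (· ≠ 0) (l j)]
    rw [Multiset.sum_add]
    have h0 : ((l j).filter fun a => ¬ a ≠ 0).sum = 0 := by
      refine Multiset.sum_eq_zero fun x hx => ?_
      simpa using (Multiset.mem_filter.1 hx).2
    rw [h0, add_zero]

theorem fin_prod_X {n M : ℕ} (f : Fin n → Fin M) :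
    (∏ a, MvPolynomial.X (f a) : MvPolynomial (Fin M) (Polynomial ℤ)) =
      MvPolynomial.monomial (content f) 1 := by
  unfold content
  rw [MvPolynomial.monomial_sum_one]
  rfl

theorem fin_content_deg {n M : ℕ} (f : Fin n → Fin M) : (content f).degree = n := by
  unfold content
  rw [map_sum]
  simp

theorem fin_chrom_coeff {n : ℕ} (h : Fin n → Fin n) (M : ℕ) (μ : Fin M →₀ ℕ) (k : ℕ) :
    (MvPolynomial.coeff μ (chrom h M)).coeff k =
      ∑ f ∈ univ.filter (fun f : Fin n → Fin M => Proper h f ∧ content f = μ),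
        if asc h f = k then (1 : ℤ) else 0 := by
  unfold chrom
  rw [MvPolynomial.coeff_sum, Polynomial.finsetSum_coeff, ← Finset.filter_filter,
    Finset.sum_filter (fun f => content f = μ)]
  refine Finset.sum_congr (by ext f; simp) fun f _ => ?_
  rw [fin_prod_X, MvPolynomial.coeff_C_mul, MvPolynomial.coeff_monomial]
  by_cases hc : content f = μ
  · rw [if_pos hc, if_pos hc, mul_one, Polynomial.coeff_X_pow]
    by_cases hk : asc h f = k
    · rw [if_pos hk, if_pos hk.symm]
    · rw [if_neg hk, if_neg fun hc => hk hc.symm]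
  · rw [if_neg hc, if_neg hc, mul_zero, Polynomial.coeff_zero]

theorem fin_asc_le {n M : ℕ} (h : Fin n → Fin n) (f : Fin n → Fin M) : asc h f ≤ n * n := by
  unfold asc
  refine (Finset.card_filter_le _ _).trans ?_
  simp

theorem fin_part_coeff {n M : ℕ} (p : n.Partition) (μ : Fin M →₀ ℕ) :
    MvPolynomial.coeff μ (MvPolynomial.esymmPart (Fin M) (Polynomial ℤ) p) =
      Polynomial.C (MvPolynomial.coeff μ (MvPolynomial.esymmPart (Fin M) ℤ p)) := by
  rw [← MvPolynomial.coeff_map]
  unfold MvPolynomial.esymmPart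
  rw [map_multiset_prod, Multiset.map_map]
  have : (⇑(MvPolynomial.map (σ := Fin M) (Polynomial.C : ℤ →+* Polynomial ℤ)) ∘
      MvPolynomial.esymm (Fin M) ℤ) = MvPolynomial.esymm (Fin M) (Polynomial ℤ) := by
    funext k
    exact MvPolynomial.map_esymm _ _ k _
  rw [this]

theorem sw {n : ℕ} (h : Fin n → Fin n) (hm : Monotone h) (hi : ∀ i, i ≤ h i) :
    ∃ c : n.Partition → Polynomial ℤ, (∀ l k, 0 ≤ (c l).coeff k) ∧
      ∀ N : ℕ, chrom h N =
        ∑ l : n.Partition, MvPolynomial.C (c l) * MvPolynomial.esymmPart (Fin N) (Polynomial ℤ) l := by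
  obtain ⟨J, A, l, β, hβ, hex⟩ := expansion h hm hi
  let g : n.Partition → ℕ → ℤ := fun p k =>
    ∑ j ∈ A.filter (fun j => (l j).filter (· ≠ 0) = p.parts), (β j).coeff (2 * (k : ℤ))
  let c : n.Partition → Polynomial ℤ := fun p =>
    ∑ k ∈ range (n * n + 1), Polynomial.monomial k (g p k)
  have hc : ∀ p k, (c p).coeff k = if k ≤ n * n then g p k else 0 := by
    intro p k
    simp only [c, Polynomial.finsetSum_coeff, Polynomial.coeff_monomial]
    rw [Finset.sum_ite_eq' (range (n * n + 1)) k (fun k => g p k)]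
    simp only [Finset.mem_range, Nat.lt_succ_iff]
  refine ⟨c, fun p k => ?_, fun N => ?_⟩
  · rw [hc]
    split_ifs
    · exact Finset.sum_nonneg fun j _ => hβ j _
    · exact le_rfl
  · refine MvPolynomial.ext _ _ fun μ => Polynomial.ext fun k => ?_
    rw [fin_chrom_coeff, MvPolynomial.coeff_sum, Polynomial.finsetSum_coeff]
    simp only [MvPolynomial.coeff_C_mul, fin_part_coeff, Polynomial.coeff_mul_C, hc]
    by_cases hμ : μ.degree = n
    · by_cases hk : k ≤ n * n
      · simp only [if_pos hk]
        have h1 := congrArg (fun x : K => x.coeff (2 * (k : ℤ))) (hex N μ hμ)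
        simp only [HahnSeries.coeff_sum] at h1
        rw [← fin_group A l (fun j => (β j).coeff (2 * (k : ℤ))) μ hμ]
        refine Eq.trans ?_ (h1.trans ?_)
        · refine Finset.sum_congr rfl fun f _ => ?_
          unfold U
          rw [HahnSeries.coeff_single]
          by_cases hk : asc h f = k
          · rw [if_pos hk, if_pos (by rw [hk])]
          · rw [if_neg hk, if_neg (by omega)]
        · refine Finset.sum_congr rfl fun j _ => ?_
          rw [mul_comm (β j), ← zsmul_eq_mul, HahnSeries.coeff_smul, smul_eq_mul, mul_comm]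
      · simp only [if_neg hk, zero_mul, Finset.sum_const_zero]
        refine Finset.sum_eq_zero fun f _ => ?_
        have := fin_asc_le h f
        rw [if_neg (by omega)]
    · rw [Finset.sum_eq_zero, Finset.sum_eq_zero]
      · intro p _
        unfold MvPolynomial.esymmPart
        rw [fin_coeff_zero N _ μ (by rw [p.parts_sum]; exact hμ), mul_zero]
      · intro f hf
        exfalso
        apply hμ
        rw [← (Finset.mem_filter.1 hf).2.2, fin_content_deg]

end
end Vale.Agent.P066.G
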