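import Vale.Agent.P066.S.Mut

/-!
P066 part G, file Ham (definitions final; lemmas = TASK G2).  Hamiltonians and the square move.
Write `y = t iy`, `q = t iq = y + k`, `y' = t iy'`, `q' = y' + k`.  For the other indices `a`,
`om k (t a) = 0`, so `a` is orthogonal to `q` iff to `y`, and to `q'` iff to `y'`.  Also
`om y q = 1`, `om q y' = 1`, `om y q' = 1`, `om q' y' = 1`, `om y y' = 0`.  An independent set is
`S0 ∪ T` with `S0` in the rest and `T ∈ {∅, {iy}, {iq}, {iy'}, {iy, iy'}}` (old frame),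
`T ∈ {∅, {iy}, {iy'}, {iq}, {iy, iy'}}` (new frame `update t iq q'`).  First reduce to `ψ = refl` with
`ham_equiv`.  One way: split the sum over independent `S` into three parts according to
`w S = om k (t S) ∈ {0, -1, 1}` (indicator of `iy'` minus indicators of `iy`, `iq`); the parts with
`w = -1` pair up via `iy ↔ iq` (`E_m2`), those with `w = 1` contain `iy'` but not `iy, iq` (`E_m1`),
those with `w = 0` are common to both frames (`E_m0`).  `sq2` is the same computation with `-k`.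
-/

namespace Vale.Agent.P066.G
open Vale.Agent.P066.S Finset
noncomputable section
open Classical

variable {N : Type} [AddCommGroup N] [QL N] {ι : Type} [Fintype ι]

def Ind (t : ι → N) (S : Finset ι) : Prop := ∀ a ∈ S, ∀ b ∈ S, om (t a) (t b) = 0
def ham (C : Cone N) (t : ι → N) (j : ℕ) : L C :=
  ∑ S ∈ univ.filter (fun S : Finset ι => Ind t S ∧ S.card = j), Xm C (∑ a ∈ S, t a)
def hamP (C : Cone N) (t : ι → N) {M : ℕ} (μ : Fin M → ℕ) : L C :=
  (List.ofFn fun c => ham C t (μ c)).prod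

variable {C C' : Cone N} {t t' : ι → N} {M : ℕ}

theorem ham_fn (C : Cone N) (t : ι → N) (j : ℕ) (x : N) : (ham C t j).fn x =
    ∑ S ∈ univ.filter (fun S : Finset ι => Ind t S ∧ S.card = j), dl (∑ a ∈ S, t a) 1 x :=
  L.sum_fn _ _ _

theorem ham_ofFn_map {T : N ≃+ N} (hT : Pres T) (F : Fin M → L C') (G : Fin M → L C)
    (h : ∀ c x, (F c).fn (T x) = (G c).fn x) (x : N) :
    (List.ofFn F).prod.fn (T x) = (List.ofFn G).prod.fn x := by
  induction M generalizing x with
  | zero =>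
    simp only [List.ofFn_zero, List.prod_nil, L.one_fn, dl, EmbeddingLike.map_eq_zero_iff]
  | succ M ih =>
    rw [List.ofFn_succ, List.ofFn_succ, List.prod_cons, List.prod_cons, L.mul_fn, L.mul_fn]
    have h1 : (F 0).fn = fun y => (G 0).fn (T.symm y) := by
      funext y; rw [← h 0, AddEquiv.apply_symm_apply]
    have h2 : (List.ofFn fun i : Fin M => F i.succ).prod.fn =
        fun y => (List.ofFn fun i : Fin M => G i.succ).prod.fn (T.symm y) := by
      funext y
      rw [← ih (fun i => F i.succ) (fun i => G i.succ) (fun c x => h c.succ x),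
        AddEquiv.apply_symm_apply]
    rw [h1, h2, conv_map hT]
    simp only [AddEquiv.symm_apply_apply]

theorem ham_fn_congr (C C' : Cone N) (t : ι → N) (j : ℕ) : (ham C t j).fn = (ham C' t j).fn := by
  funext x; rw [ham_fn, ham_fn]
theorem hamP_fn_congr (C C' : Cone N) (t : ι → N) (μ : Fin M → ℕ) :
    (hamP C t μ).fn = (hamP C' t μ).fn := by
  funext x
  exact ham_ofFn_map (T := AddEquiv.refl N) (fun _ _ => rfl) (fun c => ham C t (μ c))
    (fun c => ham C' t (μ c)) (fun c y => congrFun (ham_fn_congr C C' t (μ c)) y) x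

theorem ham_emb {ι' : Type} [Fintype ι'] (emb : ι' ↪ ι) {j : ℕ} {x : N}
    (h : ∀ S : Finset ι, S.card = j → x = ∑ a ∈ S, t a → ∀ a ∈ S, a ∈ Set.range emb) :
    (ham C (fun a => t (emb a)) j).fn x = (ham C t j).fn x := by
  rw [ham_fn, ham_fn]
  refine sum_of_injOn (fun S => S.map emb) (fun _ _ _ _ e => map_injective emb e) ?_ ?_ ?_
  · intro S hS
    rw [mem_coe, mem_filter] at hS ⊢
    refine ⟨mem_univ _, fun a ha b hb => ?_, by rw [card_map]; exact hS.2.2⟩
    obtain ⟨a', ha', rfl⟩ := mem_map.1 ha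
    obtain ⟨b', hb', rfl⟩ := mem_map.1 hb
    exact hS.2.1 a' ha' b' hb'
  · intro S hS hn
    simp only [mem_filter, mem_univ, true_and] at hS
    by_contra h0
    have hx : x = ∑ a ∈ S, t a := by
      by_contra h1
      exact h0 (if_neg h1)
    have hsub : S ⊆ univ.map emb := fun a ha => by
      obtain ⟨b, rfl⟩ := h S hS.2 hx a ha
      exact mem_map_of_mem _ (mem_univ b)
    obtain ⟨u, -, rfl⟩ := subset_map_iff.1 hsub
    refine hn ⟨u, ?_, rfl⟩
    simp only [coe_filter, mem_univ, true_and, Set.mem_setOf_eq]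
    exact ⟨fun a ha b hb => hS.1 _ (mem_map_of_mem _ ha) _ (mem_map_of_mem _ hb),
      by rw [← hS.2, card_map]⟩
  · intro S _
    rw [sum_map]

theorem ham_equiv {ι' : Type} [Fintype ι'] (e : ι' ≃ ι) (j : ℕ) :
    ham C (fun a => t (e a)) j = ham C t j := by
  refine L.ext (funext fun x => ?_)
  exact ham_emb e.toEmbedding fun S _ _ a _ => ⟨e.symm a, e.apply_symm_apply a⟩
theorem ham_ne_zero {j : ℕ} {x : N} (h : (ham C t j).fn x ≠ 0) :
    ∃ S : Finset ι, Ind t S ∧ S.card = j ∧ x = ∑ a ∈ S, t a := by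
  rw [ham_fn] at h
  obtain ⟨S, hS, h0⟩ := exists_ne_zero_of_sum_ne_zero h
  simp only [mem_filter, mem_univ, true_and] at hS
  refine ⟨S, hS.1, hS.2, ?_⟩
  by_contra h1
  exact h0 (if_neg h1)

theorem hamP_zero (μ : Fin 0 → ℕ) : hamP C t μ = 1 := rfl
theorem hamP_succ (μ : Fin (M + 1) → ℕ) :
    hamP C t μ = ham C t (μ 0) * hamP C t fun c : Fin M => μ c.succ := by
  unfold hamP
  rw [List.ofFn_succ, List.prod_cons]

omit [QL N] in
theorem ham_one_ne {x : N} (h : (1 : L C).fn x ≠ 0) : x = 0 := by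
  by_contra h1
  exact h (if_neg h1)

theorem hamP_supp {g0 : N} (h : ∀ a, t a - g0 ∈ C.P) (μ : Fin M → ℕ) :
    ∀ x, (hamP C t μ).fn x ≠ 0 → x - (∑ c, μ c) • g0 ∈ C.P := by
  induction M with
  | zero =>
    intro x hx
    rw [ham_one_ne hx]
    simpa using C.P.zero_mem
  | succ M ih =>
    rw [hamP_succ, Fin.sum_univ_succ, add_smul]
    refine L.mul_supp (fun n hn => ?_) (ih _)
    obtain ⟨S, -, hS, rfl⟩ := ham_ne_zero hn
    rw [← hS, ← sum_const, ← sum_sub_distrib]
    exact C.P.sum_mem fun a _ => h a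
theorem hamP_mem {Q : AddSubmonoid N} (h : ∀ a, t a ∈ Q) (μ : Fin M → ℕ) :
    SuppIn Q (hamP C t μ).fn := by
  induction M with
  | zero => intro x hx; rw [ham_one_ne hx]; exact Q.zero_mem
  | succ M ih =>
    rw [hamP_succ]
    refine SuppIn.conv (fun n hn => ?_) (ih _)
    obtain ⟨S, -, -, rfl⟩ := ham_ne_zero hn
    exact Q.sum_mem fun a _ => h a

omit [QL N] [Fintype ι] in
theorem ham_deg_sum {d : ℤ} (h : ∀ a, d ≤ C.deg (t a)) (S : Finset ι) :
    S.card * d ≤ C.deg (∑ a ∈ S, t a) := by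
  rw [map_sum]
  have := card_nsmul_le_sum S (fun a => C.deg (t a)) d fun a _ => h a
  rwa [nsmul_eq_mul] at this

theorem ham_deg {d : ℤ} (h : ∀ a, d ≤ C.deg (t a)) (j : ℕ) :
    ∀ n, (ham C t j).fn n ≠ 0 → j * d ≤ C.deg n := by
  intro n hn
  obtain ⟨S, -, rfl, rfl⟩ := ham_ne_zero hn
  exact ham_deg_sum h S

theorem hamP_deg {d : ℤ} (h : ∀ a, d ≤ C.deg (t a)) (μ : Fin M → ℕ) :
    ∀ n, (hamP C t μ).fn n ≠ 0 → (∑ c, μ c : ℕ) * d ≤ C.deg n := by
  induction M with
  | zero => intro x hx; rw [ham_one_ne hx]; simp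
  | succ M ih =>
    intro n hn
    rw [hamP_succ] at hn
    obtain ⟨a, h1, h2⟩ := conv_ne_zero hn
    have h3 := ham_deg h _ _ h1
    have h4 := ih _ _ h2
    rw [map_sub] at h4
    rw [Fin.sum_univ_succ, Nat.cast_add, add_mul]
    omega

/-- frame vectors of high degree do not matter in low degree -/
theorem hamP_loc {ι' : Type} [Fintype ι'] (emb : ι' ↪ ι) {d R : ℤ} (h : ∀ a, d ≤ C.deg (t a))
    (hR : ∀ a, a ∉ Set.range emb → d + R < C.deg (t a)) (μ : Fin M → ℕ) {x : N}
    (hx : C.deg x ≤ (∑ c, μ c : ℕ) * d + R) :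
    (hamP C t μ).fn x = (hamP C (fun a => t (emb a)) μ).fn x := by
  induction M generalizing x with
  | zero => rfl
  | succ M ih =>
    rw [hamP_succ, hamP_succ]
    have h' : ∀ a, d ≤ C.deg ((fun a => t (emb a)) a) := fun a => h _
    refine L.mul_loc (R := R) (ham_deg h _) (ham_deg h' _) (hamP_deg h _) (hamP_deg h' _)
      (fun n hn => (ham_emb emb fun S hS e a ha => ?_).symm) (fun n hn => ih _ hn) ?_
    · by_contra h1
      have h2 := hR a h1
      have h3 := ham_deg_sum h (S.erase a)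
      have h4 := card_erase_add_one ha
      rw [← add_sum_erase S t ha] at e
      rw [e, map_add, ← hS, ← h4, Nat.cast_add, Nat.cast_one, add_mul, one_mul] at hn
      omega
    · rw [Fin.sum_univ_succ, Nat.cast_add, add_mul] at hx
      exact hx

structure Sq (t t' : ι → N) (k : N) : Prop where
  ex : ∃ (iy iq iy' : ι) (ψ : ι ≃ ι), iy ≠ iq ∧ iy ≠ iy' ∧ iq ≠ iy' ∧ k = t iq - t iy ∧
    (∀ a, a ≠ iq → t' (ψ a) = t a) ∧ t' (ψ iq) = t iy' + k ∧ om k (t iy) = -1 ∧
    om k (t iy') = 1 ∧ om (t iy) (t iy') = 0 ∧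
    ∀ a, a ≠ iy → a ≠ iq → a ≠ iy' → om k (t a) = 0

omit [Fintype ι] in
theorem ham_ind_insert {i : ι} {S : Finset ι} :
    Ind t (insert i S) ↔ Ind t S ∧ ∀ a ∈ S, om (t i) (t a) = 0 := by
  constructor
  · intro h
    exact ⟨fun a ha b hb => h a (mem_insert_of_mem ha) b (mem_insert_of_mem hb),
      fun a ha => h i (mem_insert_self _ _) a (mem_insert_of_mem ha)⟩
  · rintro ⟨h1, h2⟩ a ha b hb
    rcases mem_insert.1 ha with rfl | ha'
    · rcases mem_insert.1 hb with rfl | hb'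
      · exact om_self _
      · exact h2 b hb'
    · rcases mem_insert.1 hb with rfl | hb'
      · rw [om_skew, h2 a ha', neg_zero]
      · exact h1 a ha' b hb'

theorem ham_om_addl (a b c : N) : om (a + b) c = om a c + om b c := by
  simp only [om, map_add, AddMonoidHom.add_apply]
theorem ham_om_addr (a b c : N) : om a (b + c) = om a b + om a c := by
  simp only [om, map_add]
theorem ham_om_negl (a b : N) : om (-a) b = -om a b := by
  simp only [om, map_neg, AddMonoidHom.neg_apply]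

theorem ham_split {i0 i1 i2 : ι} {k : N} (h01 : i0 ≠ i1) (h02 : i0 ≠ i2) (h12 : i1 ≠ i2)
    (hk : t i0 = t i1 + k) (k1 : om k (t i1) ≠ 0) (k2 : om k (t i2) ≠ 0)
    (k12 : om (t i1) (t i2) = 0) (k0 : ∀ a, a ≠ i0 → a ≠ i1 → a ≠ i2 → om k (t a) = 0) (j : ℕ) :
    ham C t j = ∑ S ∈ (univ.filter (fun S : Finset ι => Ind t S ∧ S.card = j)).filter (i0 ∉ ·),
      (Xm C (∑ a ∈ S, t a) + if i1 ∈ S ∧ i2 ∉ S then Xm C (∑ a ∈ S, t a + k) else 0) := by
  rw [sum_add_distrib, ← sum_filter, ham, ← sum_filter_not_add_sum_filter _ (i0 ∈ ·)]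
  congr 1
  have n1 : om (t i0) (t i1) ≠ 0 := by rwa [hk, ham_om_addl, om_self, zero_add]
  have n2 : om (t i0) (t i2) ≠ 0 := by rwa [hk, ham_om_addl, k12, zero_add]
  have e0 : ∀ a, a ≠ i0 → a ≠ i1 → a ≠ i2 → om (t i0) (t a) = om (t i1) (t a) := by
    intro a a0 a1 a2
    rw [hk, ham_om_addl, k0 a a0 a1 a2, add_zero]
  refine sum_nbij' (fun S => insert i1 (S.erase i0)) (fun S => insert i0 (S.erase i1))
    ?_ ?_ ?_ ?_ ?_
  · intro S hS
    simp only [mem_filter, mem_univ, true_and] at hS ⊢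
    obtain ⟨⟨hI, hc⟩, m0⟩ := hS
    have m1 : i1 ∉ S := fun m => n1 (hI _ m0 _ m)
    have m2 : i2 ∉ S := fun m => n2 (hI _ m0 _ m)
    refine ⟨⟨⟨ham_ind_insert.2 ⟨fun a ha b hb => hI a (mem_of_mem_erase ha) b (mem_of_mem_erase hb),
      fun a ha => ?_⟩, ?_⟩, ?_⟩, mem_insert_self _ _, ?_⟩
    · have ha' := mem_of_mem_erase ha
      rw [← e0 a (ne_of_mem_erase ha) (fun e => m1 (e ▸ ha')) (fun e => m2 (e ▸ ha'))]
      exact hI _ m0 _ ha'
    · rw [card_insert_of_notMem fun m => m1 (mem_of_mem_erase m), card_erase_add_one m0, hc]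
    · simp [h01]
    · simp [h12.symm, m2]
  · intro S hS
    simp only [mem_filter, mem_univ, true_and] at hS ⊢
    obtain ⟨⟨⟨hI, hc⟩, m0⟩, m1, m2⟩ := hS
    refine ⟨⟨ham_ind_insert.2 ⟨fun a ha b hb => hI a (mem_of_mem_erase ha) b (mem_of_mem_erase hb),
      fun a ha => ?_⟩, ?_⟩, mem_insert_self _ _⟩
    · have ha' := mem_of_mem_erase ha
      rw [e0 a (fun e => m0 (e ▸ ha')) (ne_of_mem_erase ha) (fun e => m2 (e ▸ ha'))]
      exact hI _ m1 _ ha'
    · rw [card_insert_of_notMem fun m => m0 (mem_of_mem_erase m), card_erase_add_one m1, hc]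
  · intro S hS
    simp only [mem_filter, mem_univ, true_and] at hS
    obtain ⟨⟨hI, hc⟩, m0⟩ := hS
    have m1 : i1 ∉ S := fun m => n1 (hI _ m0 _ m)
    rw [erase_insert fun m => m1 (mem_of_mem_erase m), insert_erase m0]
  · intro S hS
    simp only [mem_filter, mem_univ, true_and] at hS
    obtain ⟨⟨⟨hI, hc⟩, m0⟩, m1, m2⟩ := hS
    rw [erase_insert fun m => m0 (mem_of_mem_erase m), insert_erase m1]
  · intro S hS
    simp only [mem_filter, mem_univ, true_and] at hS
    obtain ⟨⟨hI, hc⟩, m0⟩ := hS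
    have m1 : i1 ∉ S := fun m => n1 (hI _ m0 _ m)
    rw [sum_insert fun m => m1 (mem_of_mem_erase m), ← add_sum_erase S t m0, hk, add_right_comm]

/-- both Hamiltonians as sums over the same index set -/
theorem Sq.split {k : N} (h : Sq t t' k) (C : Cone N) (j : ℕ) : k ≠ 0 ∧
    ∃ (B : Finset (Finset ι)) (b : Finset ι → N), (∀ S ∈ B, om k (b S) = 0 ∨ om k (b S) = 1 ∨
      om k (b S) = -1) ∧
      ham C t j = ∑ S ∈ B, (Xm C (b S) + if om k (b S) = -1 then Xm C (b S + k) else 0) ∧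
      ham C t' j = ∑ S ∈ B, (Xm C (b S) + if om k (b S) = 1 then Xm C (b S + k) else 0) := by
  obtain ⟨iy, iq, iy', ψ, n1, n2, n3, hk, e1, e2, k1, k2, k12, k0⟩ := h.ex
  have hw : ∀ S : Finset ι, iq ∉ S → om k (∑ a ∈ S, t a) =
      (if iy' ∈ S then 1 else 0) - (if iy ∈ S then 1 else 0) := by
    intro S hS
    rw [← sum_ite_eq' S iy' (fun _ => (1 : ℤ)), ← sum_ite_eq' S iy (fun _ => (1 : ℤ)),
      ← sum_sub_distrib, om, map_sum]
    refine sum_congr rfl fun a ha => ?_
    by_cases a1 : a = iy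
    · subst a1; rw [if_neg n2, if_pos rfl]; exact k1
    · by_cases a2 : a = iy'
      · subst a2; rw [if_pos rfl, if_neg a1]; exact k2
      · rw [if_neg a1, if_neg a2]; exact k0 a a1 (fun e => hS (e ▸ ha)) a2
  refine ⟨fun e => by simp [e, om] at k2,
    (univ.filter (fun S : Finset ι => Ind t S ∧ S.card = j)).filter (iq ∉ ·),
    fun S => ∑ a ∈ S, t a, fun S hS => ?_, ?_, ?_⟩
  · simp only [hw S (mem_filter.1 hS).2]
    split_ifs <;> simp
  · rw [ham_split n1.symm n3 n2 (k := k) (by rw [hk]; abel) (by omega) (by omega) k12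
      (fun a a0 a1 a2 => k0 a a1 a0 a2)]
    refine sum_congr rfl fun S hS => ?_
    simp only [hw S (mem_filter.1 hS).2]
    by_cases a1 : iy ∈ S <;> by_cases a2 : iy' ∈ S <;> simp [a1, a2]
  · rw [← ham_equiv ψ, ham_split (t := fun a => t' (ψ a)) n3 n1.symm n2.symm (k := k)
      (by simp only [e2, e1 iy' n3.symm]) (by simp only [e1 iy' n3.symm]; omega)
      (by simp only [e1 iy n1]; omega)
      (by simp only [e1 iy' n3.symm, e1 iy n1]; rw [om_skew, k12, neg_zero])
      (fun a a0 a1 a2 => by simp only [e1 a a0]; exact k0 a a2 a0 a1)]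
    have hne : ∀ S : Finset ι, iq ∉ S → ∀ a ∈ S, t' (ψ a) = t a :=
      fun S hS a ha => e1 a fun e => hS (e ▸ ha)
    refine sum_congr ?_ fun S hS => ?_
    · ext S
      simp only [mem_filter, mem_univ, true_and, and_congr_left_iff]
      intro hS _
      refine forall₂_congr fun a ha => forall₂_congr fun b hb => ?_
      simp only [hne S hS a ha, hne S hS b hb]
    · have hS' := (mem_filter.1 hS).2
      simp only [hw S hS', sum_congr rfl (hne S hS')]
      by_cases a1 : iy ∈ S <;> by_cases a2 : iy' ∈ S <;> simp [a1, a2]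

theorem sq1 {k : N} (h : Sq t t' k) {E : Grp C} (hE : E.fn = Efn k) (j : ℕ) :
    cj E (ham C t j) = ham C t' j := by
  obtain ⟨hk, B, b, hb, e1, e2⟩ := h.split C j
  rw [e1, e2, cj_sum]
  refine sum_congr rfl fun S hS => ?_
  rcases hb S hS with h0 | h0 | h0
  · rw [if_neg (by omega), if_neg (by omega), add_zero, E_m0 hk hE h0]
  · rw [if_neg (by omega), if_pos h0, add_zero, E_m1 hk hE h0]
  · rw [if_pos h0, if_neg (by omega), add_zero, E_m2 hk hE h0]

theorem ham_Xm_tv {k b b' : N} (h : b' = tv k b) (x : N) :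
    (Xm C b').fn (tv k x) = (Xm C b).fn x := by
  simp only [mono_fn, dl, h, EmbeddingLike.apply_eq_iff_eq]

theorem sq2 {k : N} (h : Sq t t' k) {E' : Grp C'} (hE' : E'.fn = Efn (-k)) (j : ℕ) (x : N) :
    (cj E' (ham C' t' j)).fn (tv k x) = (ham C' t j).fn x := by
  obtain ⟨hk, B, b, hb, e1, e2⟩ := h.split C' j
  have hk' : -k ≠ 0 := neg_ne_zero.2 hk
  rw [e1, e2, cj_sum, L.sum_fn, L.sum_fn]
  refine sum_congr rfl fun S hS => ?_
  rcases hb S hS with h0 | h0 | h0
  · rw [if_neg (by omega), if_neg (by omega), add_zero,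
      E_m0 hk' hE' (by rw [ham_om_negl, h0, neg_zero])]
    exact ham_Xm_tv (by rw [tv_apply, h0, zero_smul, add_zero]) x
  · have h1 := E_m2 (b := b S + k) hk' hE' (by rw [ham_om_negl, ham_om_addr, h0, om_self, add_zero])
    rw [add_neg_cancel_right, add_comm] at h1
    rw [if_pos h0, if_neg (by omega), add_zero, h1]
    exact ham_Xm_tv (by rw [tv_apply, h0, one_smul]) x
  · rw [if_neg (by omega), if_pos h0, add_zero, E_m1 hk' hE' (by rw [ham_om_negl, h0, neg_neg]),
      L.add_fn, L.add_fn, Pi.add_apply, Pi.add_apply, add_comm]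
    congr 1
    · exact ham_Xm_tv (by rw [tv_apply, h0, neg_one_smul]) x
    · exact ham_Xm_tv (by rw [tv_apply, ham_om_addr, h0, om_self, add_zero, neg_one_smul,
        add_neg_cancel_right]) x
theorem sqP1 {k : N} (h : Sq t t' k) {E : Grp C} (hE : E.fn = Efn k) (μ : Fin M → ℕ) :
    (hamP C' t' μ).fn = (cj E (hamP C t μ)).fn := by
  rw [hamP_fn_congr C' C]
  unfold hamP
  rw [cj_list_prod, List.map_ofFn]
  have : (cj E ∘ fun c => ham C t (μ c)) = fun c => ham C t' (μ c) :=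
    funext fun c => sq1 h hE (μ c)
  rw [this]
theorem sqP2 {k : N} (h : Sq t t' k) {E' : Grp C'} (hE' : E'.fn = Efn (-k)) (μ : Fin M → ℕ)
    (x : N) : (cj E' (hamP C' t' μ)).fn (tv k x) = (hamP C t μ).fn x := by
  unfold hamP
  rw [cj_list_prod, List.map_ofFn]
  exact ham_ofFn_map (pres_tv k) _ _ (fun c y => (sq2 h hE' (μ c) y).trans
    (congrFun (ham_fn_congr C' C t (μ c)) y)) x

end
end Vale.Agent.P066.G
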