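import Vale.Agent.P066.S.Conv

/-!
P066 part G, file Model (definitions final; lemmas = TASK G3).  The lattice of the path power graph.
Construction for `exists_model`: `N = Ix m r → ℤ` (a type synonym is not needed, give the `QL`
structure explicitly), basis vectors `Y j`, `B (i,c)`; position `pos (inl j) = (r+1) j`,
`pos (inr (i,c)) = (r+1) i + c + 1`, `w a b = [0 < pos b - pos a ≤ r] - [0 < pos a - pos b ≤ r]`,
`om x y = ∑ a b, x a * y b * w a b`; `zeta` from the lexicographic order (transport to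
`Lex (Fin _ → ℤ)` or use an injective additive map to the reals / `Pi.Lex`);
`q i s = B (i, s % r) + (s / r) • (Y (i+1) - Y i)`; `rho i x = ∑ c, x (inr (i,c))`;
`lam i s = Lam i (s % r) + (s / r) • rho i` with `Lam i c x = ∑ a with pos a ≤ (r+1) i + c, x a`;
`co a x = x a`.  Writing `s = c + r a`, `s' = c' + r a'` one gets
`om (q i s) (q (i+1) s') = [c' < c] + a - a'`, `om (q i s) (q i s') = sgn (c' - c) + 2 (a' - a)`,
`lam i s (q i s') = [c' < c] + a - a'`, and `a - a' ∈ {-1,0,1}` in the stated ranges.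
`exists_time`: `s τ i = τ / m + [i < τ % m]`, `b τ = τ % m`.
-/

namespace Vale.Agent.P066.G
open Vale.Agent.P066.S
noncomputable section

abbrev Ix (m r : ℕ) := Fin (m + 1) ⊕ Fin m × Fin r

structure Model (m r : ℕ) (N : Type) [AddCommGroup N] [QL N] where
  y : Fin (m + 1) → N
  q : Fin m → ℤ → N
  lam : Fin m → ℤ → N →+ ℤ
  rho : Fin m → N →+ ℤ
  co : Ix m r → N →+ ℤ
  q_shift : ∀ i s, q i (s + r) = q i s + (y i.succ - y i.castSucc)
  lam_shift : ∀ i s x, lam i (s + r) x = lam i s x + rho i x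
  lam_y : ∀ i s j, lam i s (y j) = if j ≤ i.castSucc then 1 else 0
  lam_q_ne : ∀ i s j s', j ≠ i → lam i s (q j s') = if j < i then 1 else 0
  lam_q : ∀ i s s', -(r : ℤ) < s - s' → s - s' ≤ r → lam i s (q i s') = if s' < s then 1 else 0
  rho_y : ∀ i j, rho i (y j) = 0
  rho_q : ∀ i j s, rho i (q j s) = if i = j then 1 else 0
  om_yy : ∀ j j', om (y j) (y j') = 0
  om_yq : ∀ j i s, om (y j) (q i s) =
    if j = i.castSucc then 1 else if j = i.succ then -1 else 0
  om_qq : ∀ i s s', 0 < s' - s → s' - s < r → om (q i s) (q i s') = 1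
  om_qq_next : ∀ (i j : Fin m) s s', j.val = i.val + 1 → -(r : ℤ) < s - s' → s - s' ≤ r →
    om (q i s) (q j s') = if s' < s then 1 else 0
  om_qq_far : ∀ (i j : Fin m) s s', i.val + 2 ≤ j.val → om (q i s) (q j s') = 0
  om_y : ∀ x j, (∀ i, rho i x = 0) → om x (y j) = 0
  co_y : ∀ a j, co a (y j) = if a = Sum.inl j then 1 else 0
  co_q : ∀ a i (c : Fin r), co a (q i c) = if a = Sum.inr (i, c) then 1 else 0

section construction
variable {ι : Type} [Fintype ι] [DecidableEq ι]

/-- functional with given weights -/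
def fw (w : ι → ℤ) : (ι → ℤ) →+ ℤ :=
  AddMonoidHom.mk' (fun x => ∑ a, x a * w a) fun x y => by
    simp only [Pi.add_apply, add_mul, Finset.sum_add_distrib]

omit [DecidableEq ι] in
theorem fw_apply (w x : ι → ℤ) : fw w x = ∑ a, x a * w a := rfl

theorem fw_single (w : ι → ℤ) (a : ι) : fw w (Pi.single a 1) = w a := by
  simp [fw_apply, Pi.single_apply]

/-- bilinear form with given matrix -/
def omw (w : ι → ι → ℤ) : (ι → ℤ) →+ (ι → ℤ) →+ ℤ :=
  AddMonoidHom.mk' (fun x => fw fun b => fw (fun a => w a b) x) fun x y => by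
    ext z
    simp [fw_apply, mul_add, add_mul, Finset.sum_add_distrib]

theorem omw_single_right (w : ι → ι → ℤ) (x : ι → ℤ) (b : ι) :
    omw w x (Pi.single b 1) = ∑ a, x a * w a b := fw_single _ b

theorem omw_single (w : ι → ι → ℤ) (a b : ι) :
    omw w (Pi.single a 1) (Pi.single b 1) = w a b := (fw_single _ b).trans (fw_single _ a)

theorem omw_self (v : ι → ι → ℤ) (x : ι → ℤ) : omw (fun a b => v a b - v b a) x x = 0 := by
  show ∑ b, x b * ∑ a, x a * (v a b - v b a) = 0
  simp only [mul_sub, Finset.mul_sum, Finset.sum_sub_distrib]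
  rw [Finset.sum_comm, sub_eq_zero]
  exact Finset.sum_congr rfl fun a _ => Finset.sum_congr rfl fun b _ => by ring

/-- lexicographic sign function -/
def zl (l : List ι) : Sg (ι → ℤ) :=
  l.foldr (fun a σ => (Sg.ofHom (Pi.evalAddMonoidHom (fun _ => ℤ) a)).lex σ) (Sg.ofHom 0)

omit [Fintype ι] [DecidableEq ι] in
theorem zl_nul (l : List ι) {x : ι → ℤ} (h : (zl l).nul x) : ∀ a ∈ l, x a = 0 := by
  induction l with
  | nil => simp
  | cons b l ih =>
    have h' := Sg.lex_nul.1 h
    intro a ha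
    rcases List.mem_cons.1 ha with rfl | ha
    · exact Sg.ofHom_nul.1 h'.1
    · exact ih h'.2 a ha

end construction

variable {m r : ℕ}

/-- arrows of the path power graph -/
def vv : Ix m r → Ix m r → ℤ
  | Sum.inl _, Sum.inl _ => 0
  | Sum.inl j, Sum.inr (i, _) => if j.val = i.val then 1 else 0
  | Sum.inr (i, _), Sum.inl j => if j.val = i.val + 1 then 1 else 0
  | Sum.inr (i, c), Sum.inr (i', c') =>
    if (i.val = i'.val ∧ c.val < c'.val) ∨ (i'.val = i.val + 1 ∧ c'.val < c.val) then 1 else 0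

def omM (m r : ℕ) : (Ix m r → ℤ) →+ (Ix m r → ℤ) →+ ℤ := omw fun a b => vv a b - vv b a

@[reducible] def mQL (m r : ℕ) : QL (Ix m r → ℤ) where
  om := omM m r
  om_self := omw_self vv
  zeta := zl Finset.univ.toList
  zeta_inj x h := funext fun a => zl_nul _ h a (by simp)

def mY (r : ℕ) (j : Fin (m + 1)) : Ix m r → ℤ := Pi.single (Sum.inl j) 1

def rem (hr : 0 < r) (s : ℤ) : Fin r :=
  ⟨(s % r).toNat, by
    have h1 := Int.emod_nonneg s (show (r : ℤ) ≠ 0 by omega)
    have h2 := Int.emod_lt_of_pos s (show (0 : ℤ) < r by omega)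
    omega⟩

theorem rem_val (hr : 0 < r) (s : ℤ) : ((rem hr s).val : ℤ) = s % r :=
  Int.toNat_of_nonneg (Int.emod_nonneg s (by omega))

theorem rem_shift (hr : 0 < r) (s : ℤ) : rem hr (s + r) = rem hr s := by
  simp [rem]

theorem rem_coe (hr : 0 < r) (c : Fin r) : rem hr (c : ℤ) = c := by
  apply Fin.ext
  have := rem_val hr (c : ℤ)
  rw [Int.emod_eq_of_lt (by omega) (by omega)] at this
  exact_mod_cast this

theorem div_shift (hr : 0 < r) (s : ℤ) : (s + r) / r = s / r + 1 :=
  Int.add_ediv_of_dvd_right dvd_rfl |>.trans (by rw [Int.ediv_self (by omega)])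

def mQ (hr : 0 < r) (i : Fin m) (s : ℤ) : Ix m r → ℤ :=
  Pi.single (Sum.inr (i, rem hr s)) 1 + (s / r) • (mY r i.succ - mY r i.castSucc)

def rw' (i : Fin m) : Ix m r → ℤ
  | Sum.inl _ => 0
  | Sum.inr (j, _) => if i = j then 1 else 0

def lw (i : Fin m) (c : Fin r) : Ix m r → ℤ
  | Sum.inl j => if j.val ≤ i.val then 1 else 0
  | Sum.inr (j, c') => if j.val < i.val ∨ (j.val = i.val ∧ c'.val < c.val) then 1 else 0

def mLam (hr : 0 < r) (i : Fin m) (s : ℤ) : (Ix m r → ℤ) →+ ℤ :=
  fw (lw i (rem hr s)) + (s / r) • fw (rw' i)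

theorem fw_Y (w : Ix m r → ℤ) (j : Fin (m + 1)) : fw w (mY r j) = w (Sum.inl j) := fw_single _ _

theorem fw_Q (hr : 0 < r) (w : Ix m r → ℤ) (i : Fin m) (s : ℤ) : fw w (mQ hr i s) =
    w (Sum.inr (i, rem hr s)) + s / r * (w (Sum.inl i.succ) - w (Sum.inl i.castSucc)) := by
  rw [mQ, map_add, map_zsmul, map_sub, fw_Y, fw_Y, fw_single, smul_eq_mul]

theorem rho_Q (hr : 0 < r) (i j : Fin m) (s : ℤ) :
    fw (rw' i) (mQ hr j s) = if i = j then 1 else 0 := by
  simp [fw_Q, rw']

theorem om_QQ (hr : 0 < r) (i j : Fin m) (s s' : ℤ) : omM m r (mQ hr i s) (mQ hr j s') =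
    (vv (Sum.inr (i, rem hr s)) (Sum.inr (j, rem hr s'))
      - vv (Sum.inr (j, rem hr s')) (Sum.inr (i, rem hr s)))
    + s' / r * ((if j.val = i.val then 2 else 0) - (if j.val + 1 = i.val then 1 else 0)
      - if j.val = i.val + 1 then 1 else 0)
    - s / r * ((if i.val = j.val then 2 else 0) - (if i.val + 1 = j.val then 1 else 0)
      - if i.val = j.val + 1 then 1 else 0) := by
  simp only [mQ, mY, omM, map_add, map_zsmul, map_sub, AddMonoidHom.add_apply,
    AddMonoidHom.sub_apply, AddMonoidHom.smul_apply, omw_single, smul_eq_mul]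
  simp only [vv, Fin.val_succ, Fin.val_castSucc, Nat.add_right_cancel_iff]
  split_ifs <;> omega

theorem div_key (hr : 0 < r) {s s' : ℤ} (h1 : -(r : ℤ) < s - s') (h2 : s - s' ≤ r) :
    (s / r = s' / r ∧ s - s' = s % r - s' % r) ∨
      (s / r = s' / r + 1 ∧ s - s' = s % r - s' % r + r) ∨
      (s / r + 1 = s' / r ∧ s - s' = s % r - s' % r - r) := by
  have a1 := Int.emod_nonneg s (show (r : ℤ) ≠ 0 by omega)
  have a2 := Int.emod_lt_of_pos s (show (0 : ℤ) < r by omega)
  have b1 := Int.emod_nonneg s' (show (r : ℤ) ≠ 0 by omega)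
  have b2 := Int.emod_lt_of_pos s' (show (0 : ℤ) < r by omega)
  have e1 := Int.emod_add_mul_ediv s r
  have e2 := Int.emod_add_mul_ediv s' r
  have hr' : (0 : ℤ) < r := by omega
  have u1 : s / r - s' / r < 2 := by
    by_contra h
    nlinarith
  have u2 : -2 < s / r - s' / r := by
    by_contra h
    nlinarith
  have : s / r = s' / r ∨ s / r = s' / r + 1 ∨ s / r + 1 = s' / r := by omega
  rcases this with h | h | h
  · exact Or.inl ⟨h, by rw [h] at e1; linarith⟩
  · exact Or.inr (Or.inl ⟨h, by rw [h] at e1; linarith⟩)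
  · exact Or.inr (Or.inr ⟨h, by rw [← h] at e2; linarith⟩)

theorem div_key' (hr : 0 < r) {s s' : ℤ} (h1 : -(r : ℤ) < s - s') (h2 : s - s' ≤ r) :
    (if (rem hr s').val < (rem hr s).val then 1 else 0) + s / r - s' / r
      = if s' < s then 1 else 0 := by
  have a1 := rem_val hr s
  have a2 := rem_val hr s'
  have b1 := (rem hr s).2
  have b2 := (rem hr s').2
  have := div_key hr h1 h2
  rw [← a1, ← a2] at this
  split_ifs <;> omega

theorem exists_model (m r : ℕ) (hr : 0 < r) :
    ∃ (N : Type) (_ : AddCommGroup N) (_ : QL N), Nonempty (Model m r N) := by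
  let _ := mQL m r
  refine ⟨Ix m r → ℤ, inferInstance, mQL m r, ⟨
    { y := mY r, q := mQ hr, lam := mLam hr, rho := fun i => fw (rw' i),
      co := fun a => Pi.evalAddMonoidHom (fun _ => ℤ) a,
      q_shift := fun i s => ?_, lam_shift := fun i s x => ?_, lam_y := fun i s j => ?_,
      lam_q_ne := fun i s j s' h => ?_, lam_q := fun i s s' h1 h2 => ?_,
      rho_y := fun i j => fw_Y _ _, rho_q := rho_Q hr, om_yy := fun j j' => ?_,
      om_yq := fun j i s => ?_, om_qq := fun i s s' h1 h2 => ?_,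
      om_qq_next := fun i j s s' h h1 h2 => ?_, om_qq_far := fun i j s s' h => ?_,
      om_y := fun x j h => ?_, co_y := fun a j => ?_, co_q := fun a i c => ?_ }⟩⟩
  · rw [mQ, mQ, rem_shift, div_shift hr, add_smul, one_smul, add_assoc]
  · simp only [mLam, rem_shift, div_shift hr, AddMonoidHom.add_apply, AddMonoidHom.smul_apply,
      smul_eq_mul]
    ring
  · simp [mLam, fw_Y, lw, rw', Fin.le_def]
  · have h' : j.val ≠ i.val := fun e => h (Fin.ext e)
    simp only [mLam, AddMonoidHom.add_apply, AddMonoidHom.smul_apply, fw_Q, lw, rw',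
      if_neg h.symm, Fin.val_succ, Fin.val_castSucc, Fin.lt_def, smul_eq_mul]
    split_ifs <;> omega
  · rw [← div_key' hr h1 h2]
    simp [mLam, fw_Q, lw, rw']
    ring
  · exact (omw_single _ _ _).trans (by simp [vv])
  · show omM m r _ _ = _
    simp only [mQ, mY, omM, map_add, map_zsmul, map_sub, omw_single, vv, Fin.ext_iff,
      Fin.val_succ, Fin.val_castSucc]
    split_ifs <;> first | omega | simp
  · show omM m r _ _ = _
    have a1 := rem_val hr s
    have a2 := rem_val hr s'
    have := div_key hr (s := s') (s' := s) (by omega) (by omega)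
    rw [← a1, ← a2] at this
    simp only [om_QQ, vv, true_and]
    split_ifs <;> omega
  · show omM m r _ _ = _
    rw [← div_key' hr h1 h2]
    simp only [om_QQ, vv]
    split_ifs <;> omega
  · show omM m r _ _ = _
    simp only [om_QQ, vv]
    split_ifs <;> omega
  · show omM m r _ _ = _
    have h' : ∀ i, ∑ c, x (Sum.inr (i, c)) = 0 := fun i => by
      simpa [fw_apply, rw', Fintype.sum_prod_type, Finset.sum_comm (s := Finset.univ (α := Fin m))]
        using h i
    rw [mY, omM, omw_single_right, Fintype.sum_sum_type, Fintype.sum_prod_type]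
    simp [vv, ← Finset.sum_mul, h']
  · simp [mY, Pi.single_apply]
  · have : ((c : ℕ) : ℤ) / r = 0 := Int.ediv_eq_zero_of_lt (by omega) (by omega)
    simp [mQ, rem_coe, this, Pi.single_apply]

structure Time (m : ℕ) where
  s : ℤ → Fin m → ℤ
  b : ℤ → Fin m
  s_zero : ∀ i, s 0 i = 0
  step : ∀ τ, s (τ + 1) = Function.update (s τ) (b τ) (s τ (b τ) + 1)
  lt : ∀ τ j, j < b τ → s τ j = s τ (b τ) + 1
  ge : ∀ τ j, b τ ≤ j → s τ j = s τ (b τ)
  per : ∀ τ i, s (τ + m) i = s τ i + 1

theorem exists_time {m : ℕ} (hm : 0 < m) : Nonempty (Time m) := by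
  refine ⟨
    { s := fun τ i => τ / m + if i.val < (rem hm τ).val then 1 else 0, b := rem hm,
      s_zero := fun i => by simp [rem], step := fun τ => ?_, lt := fun τ j h => ?_,
      ge := fun τ j h => ?_, per := fun τ i => ?_ }⟩
  · funext i
    have a1 := rem_val hm τ
    have a2 := rem_val hm (τ + 1)
    have b1 := (rem hm τ).2
    have b2 := (rem hm (τ + 1)).2
    have b3 := i.2
    have := div_key hm (s := τ + 1) (s' := τ) (by omega) (by omega)
    rw [← a1, ← a2] at this
    rw [Function.update_apply]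
    simp only [Fin.ext_iff]
    split_ifs <;> omega
  · simp [Fin.lt_def.1 h]
  · simp [h]
  · simp only [rem_shift, div_shift hm]
    ring

theorem Time.le_succ {m : ℕ} (T : Time m) (τ : ℤ) (i : Fin m) : T.s τ i ≤ T.s (τ + 1) i := by
  rw [T.step, Function.update_apply]
  split_ifs with h
  · rw [h]
    omega
  · exact le_rfl

theorem Time.mono {m : ℕ} (T : Time m) {τ τ' : ℤ} (h : τ ≤ τ') (i : Fin m) :
    T.s τ i ≤ T.s τ' i := by
  induction τ', h using Int.leInduction with
  | base => exact le_rfl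
  | succ n _ ih => exact ih.trans (T.le_succ n i)
theorem Time.lt_of_lt {m : ℕ} (T : Time m) {τ τ' : ℤ} (h : τ < τ') :
    T.s τ (T.b τ) < T.s τ' (T.b τ) := by
  refine lt_of_lt_of_le ?_ (T.mono (show τ + 1 ≤ τ' from h) _)
  rw [T.step, Function.update_self]
  omega
theorem Time.per_mul {m : ℕ} (T : Time m) (τ j : ℤ) (i : Fin m) :
    T.s (τ + j * m) i = T.s τ i + j := by
  induction j using Int.induction_on with
  | zero => simp
  | succ n ih => rw [add_mul, one_mul, ← add_assoc, T.per, ih, add_assoc]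
  | pred n ih =>
    have := T.per (τ + (-(n : ℤ) - 1) * m) i
    rw [show τ + (-(n : ℤ) - 1) * m + m = τ + -(n : ℤ) * m by ring, ih] at this
    omega

end
end Vale.Agent.P066.G
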