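import Vale.Agent.P066.G.Seed
import Vale.Agent.P066.G.Ham
import Vale.Agent.P066.G.Model

/-!
P066 part G, file Frame (definitions final; lemmas = TASK G4).  Frames, seeds and one move.
* `root_dual`: `lam i (s i + c) (chain s i c') = [c' ≤ c]` for `c' ≤ r + 1`, and `lam i _` is constant
  on the chain of another block.
* `om_kv`: with `k = q i (s i) - y i`, `Ok` gives `om k = -1` on `y i` and `q i (s i)`, `+1` on `y (i+1)`,
  `0` on all other frame vectors (fields of `Model`, `om_skew`).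
* `sq_move`: `ψ` rotates block `i` (`(i, c+1) ↦ (i, c)`, `(i, 0) ↦ (i, r-1)`; `finRotate`), and
  `q i (s i + r) = y (i+1) + k` by `q_shift`.
* `mut_move`: `seed_mut` with `i0 = (i, 0)` and `ψ` the rotation `(i, c+1) ↦ (i, c)`, `(i,0) ↦ (i, r)`
  of block `i`: the new chain is `y i, q (s+1), …, q (s+r), y (i+1)`; old roots other than `k` have
  `om k = 1` for `c = 1` and `c = r` (`2` if `r = 1`), and `om k ≤ 0` otherwise.
* `frame_sub_mem`: telescoping along the chains, induction on the block.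
-/

namespace Vale.Agent.P066.G
open Vale.Agent.P066.S Finset
noncomputable section
open Classical

variable {N : Type} [AddCommGroup N] [QL N] {m r : ℕ} (Mo : Model m r N)

def Model.fr (s : Fin m → ℤ) : Ix m r → N
  | Sum.inl j => Mo.y j
  | Sum.inr (i, c) => Mo.q i (s i + c)

def Model.chain (s : Fin m → ℤ) (i : Fin m) (c : ℕ) : N :=
  if c = 0 then Mo.y i.castSucc else if c ≤ r then Mo.q i (s i + c - 1) else Mo.y i.succ

def Model.root (s : Fin m → ℤ) (a : Fin m × Fin (r + 1)) : N :=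
  Mo.chain s a.1 (a.2.val + 1) - Mo.chain s a.1 a.2.val

theorem Model.om_qq_shift (i : Fin m) (s s' : ℤ) (n : ℕ) :
    om (Mo.q i (s + n * r)) (Mo.q i (s' + n * r)) = om (Mo.q i s) (Mo.q i s') := by
  induction n with
  | zero => simp
  | succ n ih =>
    have h1 := fun u => Mo.om_yq i.castSucc i u
    have h2 := fun u => Mo.om_yq i.succ i u
    simp only [if_true, i.castSucc_lt_succ.ne', if_false] at h1 h2
    rw [← ih, Nat.cast_succ, add_mul, one_mul, ← add_assoc, ← add_assoc, Mo.q_shift, Mo.q_shift]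
    have h3 := om_skew (Mo.q i (s + n * r)) (Mo.y i.succ)
    have h4 := om_skew (Mo.q i (s + n * r)) (Mo.y i.castSucc)
    have h5 := Mo.om_yy
    simp only [om, map_add, map_sub, AddMonoidHom.add_apply, AddMonoidHom.sub_apply] at *
    rw [h3, h4]
    simp only [h1, h2, h5]
    ring

theorem Model.om_qq' (i : Fin m) (s s' : ℤ) (h1 : 0 < s' - s) (h2 : s' - s < r) :
    om (Mo.q i s) (Mo.q i s') = 1 := by
  have h3 : (s.natAbs : ℤ) * 1 ≤ s.natAbs * r :=
    mul_le_mul_of_nonneg_left (by omega) (Int.natCast_nonneg _)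
  have := Mo.om_qq i (s + s.natAbs * r).toNat (s' + s.natAbs * r).toNat (by omega) (by omega)
  rwa [Int.toNat_of_nonneg (by omega), Int.toNat_of_nonneg (by omega), Mo.om_qq_shift] at this

theorem Model.lam_chain_self (s : Fin m → ℤ) (i : Fin m) {u : ℤ} (h1 : s i ≤ u)
    (h2 : u ≤ s i + r) {c : ℕ} (hc : c ≤ r + 1) :
    Mo.lam i u (Mo.chain s i c) = if s i + c ≤ u then 1 else 0 := by
  unfold Model.chain
  by_cases h0 : c = 0
  · rw [if_pos h0, Mo.lam_y, if_pos le_rfl, if_pos (by omega)]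
  by_cases h3 : c ≤ r
  · rw [if_neg h0, if_pos h3, Mo.lam_q _ _ _ (by omega) (by omega)]
    exact if_congr (by omega) rfl rfl
  · rw [if_neg h0, if_neg h3, Mo.lam_y, if_neg (not_le.2 i.castSucc_lt_succ), if_neg (by omega)]

theorem Model.lam_chain_ne (s : Fin m → ℤ) {i j : Fin m} (h : j ≠ i) (u : ℤ) (c : ℕ) :
    Mo.lam i u (Mo.chain s j c) = if j < i then 1 else 0 := by
  unfold Model.chain
  by_cases h0 : c = 0
  · rw [if_pos h0, Mo.lam_y]
    exact if_congr (Fin.castSucc_le_castSucc_iff.trans h.le_iff_lt) rfl rfl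
  by_cases h3 : c ≤ r
  · rw [if_neg h0, if_pos h3, Mo.lam_q_ne _ _ _ _ h]
  · rw [if_neg h0, if_neg h3, Mo.lam_y]
    exact if_congr Fin.succ_le_castSucc_iff rfl rfl

theorem Model.root_dual (s : Fin m → ℤ) (a b : Fin m × Fin (r + 1)) :
    (-Mo.lam a.1 (s a.1 + a.2.val)) (Mo.root s b) = if a = b then 1 else 0 := by
  obtain ⟨i, c⟩ := a
  obtain ⟨j, c'⟩ := b
  have := c.2
  have := c'.2
  simp only [Model.root, AddMonoidHom.neg_apply, map_sub, Prod.mk.injEq]
  by_cases h : j = i
  · subst h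
    rw [Mo.lam_chain_self s j (by omega) (by omega) (by omega),
      Mo.lam_chain_self s j (by omega) (by omega) (by omega)]
    simp only [true_and, Fin.ext_iff]
    split_ifs <;> omega
  · rw [Mo.lam_chain_ne s h, Mo.lam_chain_ne s h, sub_self,
      if_neg fun e : i = j ∧ c = c' => h e.1.symm]

def Model.seed (s : Fin m → ℤ) : Seed N (Fin m × Fin (r + 1)) where
  e := Mo.root s
  xi a := -Mo.lam a.1 (s a.1 + a.2.val)
  dual_eq a := by rw [Mo.root_dual, if_pos rfl]
  dual_ne a b h := by rw [Mo.root_dual, if_neg h]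

def Model.kv (s : Fin m → ℤ) (i : Fin m) : N := Mo.q i (s i) - Mo.y i.castSucc

/-- block `i` may be moved -/
def Ok (s : Fin m → ℤ) (i : Fin m) : Prop :=
  (∀ j, j < i → s j = s i + 1) ∧ ∀ j, i ≤ j → s j = s i

variable {Mo}

theorem Model.kv_eq (hr : 0 < r) (s : Fin m → ℤ) (i : Fin m) :
    Mo.kv s i = (Mo.seed s).e (i, 0) := by
  simp [Model.seed, Model.root, Model.chain, Model.kv, Nat.succ_le_of_lt hr]
theorem Model.om_kv (hr : 0 < r) {s : Fin m → ℤ} {i : Fin m} (h : Ok s i) (a : Ix m r) :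
    om (Mo.kv s i) (Mo.fr s a) =
      if a = Sum.inl i.castSucc ∨ a = Sum.inr (i, ⟨0, hr⟩) then -1
      else if a = Sum.inl i.succ then 1 else 0 := by
  have e0 : ∀ x, om (Mo.kv s i) x = om (Mo.q i (s i)) x - om (Mo.y i.castSucc) x := fun x => by
    simp [Model.kv, om]
  rw [e0]
  rcases a with j | ⟨j, c⟩
  · rw [Model.fr, Mo.om_yy, om_skew, Mo.om_yq]
    simp only [Sum.inl.injEq, reduceCtorEq, or_false]
    split_ifs <;> rfl
  have hc := c.2
  rw [Model.fr, Mo.om_yq]
  simp only [Sum.inr.injEq, reduceCtorEq, false_or, if_false, Prod.mk.injEq, Fin.ext_iff,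
    Fin.val_castSucc, Fin.val_succ]
  rcases lt_trichotomy j i with h1 | rfl | h1
  · have h2 := h.1 j h1
    rw [Fin.lt_def] at h1
    rw [om_skew]
    by_cases h3 : i.val = j.val + 1
    · rw [Mo.om_qq_next j i _ _ h3 (by omega) (by omega)]
      split_ifs <;> omega
    · rw [Mo.om_qq_far j i _ _ (by omega)]
      split_ifs <;> omega
  · by_cases h3 : c.val = 0
    · rw [h3, Nat.cast_zero, add_zero, om_self]
      simp
    · rw [Mo.om_qq' j (s j) (s j + c) (by omega) (by omega)]
      simp [h3]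
  · have h2 := h.2 j h1.le
    rw [Fin.lt_def] at h1
    by_cases h3 : j.val = i.val + 1
    · rw [Mo.om_qq_next i j _ _ h3 (by omega) (by omega)]
      split_ifs <;> omega
    · rw [Mo.om_qq_far i j _ _ (by omega)]
      split_ifs <;> omega
theorem Model.chain_succ (s : Fin m → ℤ) (i : Fin m) (c : Fin r) :
    Mo.chain s i (c + 1) = Mo.fr s (Sum.inr (i, c)) := by
  rw [Model.chain, if_neg (by omega), if_pos (by omega), Model.fr]
  congr 1
  push_cast
  ring
theorem Model.chain_last (s : Fin m → ℤ) (i : Fin m) : Mo.chain s i (r + 1) = Mo.y i.succ := by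
  rw [Model.chain, if_neg (by omega), if_neg (by omega)]
theorem Model.q_add (s : Fin m → ℤ) (i : Fin m) :
    Mo.q i (s i + r) = Mo.y i.succ + Mo.kv s i := by
  rw [Mo.q_shift, Model.kv]
  abel
theorem Model.om_chain_self (hr : 0 < r) {s : Fin m → ℤ} {i : Fin m} (h : Ok s i) {c : ℕ}
    (hc : c ≤ r) : om (Mo.kv s i) (Mo.chain s i (c + 1)) =
      if c = 0 then -1 else if c < r then 0 else 1 := by
  rcases hc.eq_or_lt with rfl | hc
  · rw [Model.chain_last, if_neg hr.ne', if_neg (lt_irrefl _)]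
    exact (Model.om_kv hr h (Sum.inl i.succ)).trans (by simp [i.castSucc_lt_succ.ne'])
  · rw [Model.chain_succ s i ⟨c, hc⟩, Model.om_kv hr h]
    simp [hc]
theorem Model.om_root_ne (hr : 0 < r) {s : Fin m → ℤ} {i j : Fin m} (h : Ok s i) (hj : j ≠ i)
    (c : Fin (r + 1)) : om (Mo.kv s i) (Mo.root s (j, c)) ≤ 0 := by
  have h1 : ∀ c < r, om (Mo.kv s i) (Mo.chain s j (c + 1)) = 0 := fun c hc => by
    rw [Model.chain_succ s j ⟨c, hc⟩, Model.om_kv hr h]
    simp [hj]
  have h2 : om (Mo.kv s i) (Mo.chain s j (c + 1)) ≤ 0 := by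
    rcases (Nat.le_of_lt_succ c.2).eq_or_lt with e | e
    · rw [e, Model.chain_last]
      refine (Model.om_kv hr h (Sum.inl j.succ)).trans_le ?_
      rw [if_neg (c := Sum.inl j.succ = Sum.inl i.succ) (by simpa using hj)]
      split_ifs <;> omega
    · exact (h1 c e).le
  have h3 : 0 ≤ om (Mo.kv s i) (Mo.chain s j c) := by
    obtain ⟨_ | c, hc⟩ := c
    · refine le_of_le_of_eq ?_ (Model.om_kv hr h (Sum.inl j.castSucc)).symm
      rw [if_neg (by simp [hj])]
      split_ifs <;> omega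
    · exact (h1 c (by omega)).ge
  exact (map_sub (QL.om _) _ _).trans_le (sub_nonpos.2 (h2.trans h3))
theorem Model.chain_update (hr : 0 < r) {s : Fin m → ℤ} {i : Fin m} (h : Ok s i) {c : ℕ}
    (hc : c ≤ r) : Mo.chain (Function.update s i (s i + 1)) i c =
      tv (Mo.kv s i) (Mo.chain s i (c + 1)) := by
  rw [tv_apply, Model.om_chain_self hr h hc]
  by_cases h0 : c = 0
  · subst h0
    simp [Model.chain, Model.kv, Nat.succ_le_of_lt hr]
  rw [if_neg h0, Model.chain, if_neg h0, if_pos hc, Function.update_self]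
  rcases hc.eq_or_lt with rfl | hc
  · rw [if_neg (lt_irrefl _), Model.chain_last, one_smul, ← Model.q_add]
    congr 1
    ring
  · rw [if_pos hc, zero_smul, add_zero, Model.chain, if_neg (by omega), if_pos (by omega)]
    congr 1
    push_cast
    ring

/-- rotation of block `i` -/
def rot (i : Fin m) (n : ℕ) : Fin m × Fin (n + 1) ≃ Fin m × Fin (n + 1) :=
  Equiv.prodCongrRight fun j => if j = i then Equiv.subRight 1 else Equiv.refl _
theorem rot_self (i : Fin m) {n : ℕ} (c : Fin (n + 1)) : rot i n (i, c) = (i, c - 1) := by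
  simp [rot]
theorem rot_ne {i j : Fin m} (h : j ≠ i) {n : ℕ} (c : Fin (n + 1)) : rot i n (j, c) = (j, c) := by
  simp [rot, h]

theorem Model.sq_move (hr : 0 < r) {s : Fin m → ℤ} {i : Fin m} (h : Ok s i) :
    Sq (Mo.fr s) (Mo.fr (Function.update s i (s i + 1))) (Mo.kv s i) := by
  have hne := i.castSucc_lt_succ.ne
  obtain ⟨r, rfl⟩ : ∃ r', r = r' + 1 := ⟨r - 1, by omega⟩
  refine ⟨Sum.inl i.castSucc, Sum.inr (i, 0), Sum.inl i.succ,
    Equiv.sumCongr (Equiv.refl _) (rot i r), by simp, by simpa using hne, by simp,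
    by simp [Model.fr, Model.kv], ?_, ?_, ?_, ?_, Mo.om_yy _ _, fun a h1 h2 h3 => ?_⟩
  · rintro (j | ⟨j, c⟩) ha
    · rfl
    rw [Equiv.sumCongr_apply, Sum.map_inr]
    by_cases hj : j = i
    · subst hj
      have hc : c ≠ 0 := fun e => ha (by rw [e])
      have hc' : c.val ≠ 0 := fun e => hc (Fin.ext e)
      rw [rot_self, Model.fr, Model.fr, Function.update_self, Fin.coe_sub_one, if_neg hc]
      congr 1
      omega
    · rw [rot_ne hj, Model.fr, Model.fr, Function.update_of_ne hj]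
  · rw [Equiv.sumCongr_apply, Sum.map_inr, rot_self, Model.fr, Model.fr, Function.update_self,
      Fin.coe_sub_one, if_pos rfl, ← Model.q_add]
    congr 1
    push_cast
    ring
  · rw [Model.om_kv hr h, if_pos (.inl rfl)]
  · rw [Model.om_kv hr h, if_neg (by simpa using hne.symm), if_pos rfl]
  · rw [Model.om_kv hr h, if_neg h3]
    exact if_neg (not_or.2 ⟨h1, h2⟩)
theorem Model.mut_move (hr : 0 < r) {s : Fin m → ℤ} {i : Fin m} (h : Ok s i) :
    ∃ π, Mut (Mo.seed s).diag (Mo.seed (Function.update s i (s i + 1))).diag (Mo.kv s i) π := by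
  rw [Model.kv_eq hr]
  refine seed_mut _ _ (i, 0) (rot i r) ?_ ?_
  · rw [← Model.kv_eq hr, rot_self]
    change Mo.root _ _ = _
    rw [Model.root, Fin.coe_sub_one, if_pos rfl, Model.chain_last, Model.chain_update hr h le_rfl,
      tv_apply, Model.om_chain_self hr h le_rfl, if_neg hr.ne', if_neg (lt_irrefl _),
      Model.chain_last, one_smul, sub_add_cancel_left]
  rintro ⟨j, c⟩ ha
  rw [← Model.kv_eq hr]
  change Mo.root _ _ = mu _ (Mo.root _ _)
  by_cases hj : j = i
  · subst hj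
    have hc : c ≠ 0 := fun e => ha (by rw [e])
    obtain ⟨_ | c, hc'⟩ := c
    · exact absurd rfl hc
    rw [rot_self, mu_of_nonneg, Model.root, Model.root, Fin.coe_sub_one, if_neg hc, map_sub,
      Model.chain_update hr h (by simp; omega), Model.chain_update hr h (by simp; omega)]
    · rfl
    · refine le_of_le_of_eq (sub_nonneg.2 ((Model.om_chain_self hr h (c := c) (by omega)).trans_le
        (le_of_le_of_eq ?_ (Model.om_chain_self hr h (c := c + 1) (by omega)).symm)))
        (map_sub (QL.om _) _ _).symm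
      rw [if_neg c.succ_ne_zero]
      split_ifs <;> omega
  · rw [rot_ne hj, mu_of_nonpos (Model.om_root_ne hr h hj c)]
    simp only [Model.root, Model.chain, Function.update_of_ne hj]
theorem Model.chain_sub_mem (s : Fin m → ℤ) (i : Fin m) {c : ℕ} (hc : c ≤ r + 1) :
    Mo.chain s i c - Mo.y i.castSucc ∈ (Mo.seed s).cone.P := by
  induction c with
  | zero => simp [Model.chain]
  | succ c ih =>
    rw [← sub_add_sub_cancel _ (Mo.chain s i c)]
    exact add_mem ((Mo.seed s).e_mem (i, ⟨c, hc⟩)) (ih (by omega))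
theorem Model.y_sub_mem (s : Fin m → ℤ) (j : Fin (m + 1)) :
    Mo.y j - Mo.y 0 ∈ (Mo.seed s).cone.P := by
  induction j using Fin.induction with
  | zero => simp
  | succ j ih =>
    rw [← sub_add_sub_cancel _ (Mo.y j.castSucc), ← Model.chain_last s]
    exact add_mem (Model.chain_sub_mem s j le_rfl) ih
theorem Model.frame_sub_mem (s : Fin m → ℤ) (a : Ix m r) :
    Mo.fr s a - Mo.y 0 ∈ (Mo.seed s).cone.P := by
  rcases a with j | ⟨j, c⟩
  · exact Model.y_sub_mem s j
  · rw [← Model.chain_succ, ← sub_add_sub_cancel _ (Mo.y j.castSucc)]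
    exact add_mem (Model.chain_sub_mem s j (by omega)) (Model.y_sub_mem s _)
theorem Model.delta_mem (s : Fin m → ℤ) (i : Fin m) :
    Mo.y i.succ - Mo.y i.castSucc ∈ (Mo.seed s).cone.P ∧
      1 ≤ (Mo.seed s).cone.deg (Mo.y i.succ - Mo.y i.castSucc) := by
  have h := Model.chain_sub_mem (Mo := Mo) s i le_rfl
  rw [Model.chain_last] at h
  refine ⟨h, (Mo.seed s).cone.pos _ h fun e => ?_⟩
  have := Mo.lam_y i 0 i.succ
  rw [sub_eq_zero.1 e, Mo.lam_y, if_pos le_rfl, if_neg (not_le.2 i.castSucc_lt_succ)] at this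
  exact one_ne_zero this
theorem Model.lam_nonpos {s : Fin m → ℤ} {p : N} (hp : p ∈ (Mo.seed s).cone.P) (i : Fin m)
    {u : ℤ} (h1 : s i ≤ u) (h2 : u ≤ s i + r) : Mo.lam i u p ≤ 0 := by
  have := (Mo.seed s).xi_nonneg hp (i, ⟨(u - s i).toNat, by omega⟩)
  simp only [Model.seed, AddMonoidHom.neg_apply] at this
  rw [show s i + ((u - s i).toNat : ℕ) = u by omega] at this
  omega
theorem Model.neg_lam_le {s : Fin m → ℤ} {p : N} (hp : p ∈ (Mo.seed s).cone.P) (i : Fin m) :
    -Mo.lam i (s i) p ≤ (Mo.seed s).cone.deg p := by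
  simpa [Model.seed] using (Mo.seed s).xi_le_deg hp (i, 0)
theorem Model.lam_shift_mul (i : Fin m) (u j : ℤ) (x : N) :
    Mo.lam i (u + j * r) x = Mo.lam i u x + j * Mo.rho i x := by
  induction j using Int.induction_on with
  | zero => simp
  | succ j ih => rw [add_mul, one_mul, ← add_assoc, Mo.lam_shift, ih]; ring
  | pred j ih =>
    have := Mo.lam_shift i (u + (-j - 1) * r) x
    rw [show u + (-j - 1) * r + r = u + -j * r by ring, ih] at this
    linarith
theorem Model.rho_kv (s : Fin m → ℤ) (i j : Fin m) :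
    Mo.rho j (Mo.kv s i) = if j = i then 1 else 0 := by
  rw [Model.kv, map_sub, Mo.rho_q, Mo.rho_y, sub_zero]
theorem Model.lam_kv_ne (s : Fin m → ℤ) {i j : Fin m} (h : j ≠ i) (u : ℤ) :
    Mo.lam j u (Mo.kv s i) = 0 := by
  rw [Model.kv, map_sub, Mo.lam_q_ne _ _ _ _ h.symm, Mo.lam_y, sub_eq_zero]
  exact if_congr (Fin.castSucc_le_castSucc_iff.trans h.symm.le_iff_lt).symm rfl rfl
theorem Model.lam_kv (s : Fin m → ℤ) (i : Fin m) {u : ℤ} (h1 : s i < u) (h2 : u ≤ s i + r) :
    Mo.lam i u (Mo.kv s i) = 0 := by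
  rw [Model.kv, map_sub, Mo.lam_q _ _ _ (by omega) (by omega), Mo.lam_y, if_pos h1, if_pos le_rfl,
    sub_self]
theorem Model.deg_kv_nonpos (hr : 0 < r) {s s' : Fin m → ℤ} {i : Fin m} (h : s i < s' i) :
    (Mo.seed s').cone.deg (Mo.kv s i) ≤ 0 := by
  rw [Seed.deg_apply]
  refine Finset.sum_nonpos fun a _ => ?_
  change -Mo.lam a.1 (s' a.1 + a.2.val) (Mo.kv s i) ≤ 0
  by_cases hj : a.1 = i
  · have hr' : (0 : ℤ) < r := by omega
    have h1 := Int.emod_nonneg (s' i + a.2.val - s i - 1) hr'.ne'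
    have h2 := Int.emod_lt_of_pos (s' i + a.2.val - s i - 1) hr'
    have h3 := Int.emod_add_ediv_mul (s' i + a.2.val - s i - 1) r
    have h4 := Int.ediv_nonneg (show 0 ≤ s' i + a.2.val - s i - 1 by omega) hr'.le
    rw [hj, show s' i + a.2.val = s i + 1 + (s' i + a.2.val - s i - 1) % r +
      (s' i + a.2.val - s i - 1) / r * r by linarith, Model.lam_shift_mul,
      Model.lam_kv s i (by omega) (by omega), Model.rho_kv, if_pos rfl]
    linarith
  · rw [Model.lam_kv_ne s hj, neg_zero]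
/-- late queue vectors have high degree in the initial seed -/
theorem Model.q_high (hr : 0 < r) (i : Fin m) (j : ℕ) {u : ℤ} (hu : (j : ℤ) * r ≤ u) :
    (Mo.seed fun _ => 0).cone.deg (Mo.y 0) + j ≤ (Mo.seed fun _ => 0).cone.deg (Mo.q i u) := by
  have key : ∀ (c : Fin r) (n : ℕ), (Mo.seed fun _ => 0).cone.deg (Mo.y 0) + n ≤
      (Mo.seed fun _ => 0).cone.deg (Mo.q i (c + n * r)) := fun c n => by
    induction n with
    | zero =>
      have := Cone.deg_nonneg _ (Model.frame_sub_mem (Mo := Mo) (fun _ => 0) (Sum.inr (i, c)))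
      simpa [Model.fr] using this
    | succ n ih =>
      have := (Model.delta_mem (Mo := Mo) (fun _ => 0) i).2
      rw [Nat.cast_succ, add_mul, one_mul, ← add_assoc, ← add_assoc, Mo.q_shift, map_add]
      linarith
  have hr' : (0 : ℤ) < r := by omega
  have h1 := Int.emod_nonneg u hr'.ne'
  have h2 := Int.emod_lt_of_pos u hr'
  have h3 := Int.le_ediv_of_mul_le hr' hu
  have h4 := key ⟨(u % r).toNat, by omega⟩ (u / r).toNat
  rw [Int.toNat_of_nonneg h1, Int.toNat_of_nonneg (by omega), Int.emod_add_ediv_mul] at h4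
  linarith

end
end Vale.Agent.P066.G
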