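import Mathlib

/-! P066: linear independence of the `e_λ` in at least `n` variables. -/

namespace Vale.Agent.P066.G
open MvPolynomial Finset
noncomputable section

def partMon {n : ℕ} (l : n.Partition) : Fin n →₀ ℕ :=
  Finsupp.equivFunOnFinite.symm fun i => l.parts.count (i.val + 1)

theorem partMon_inj {n : ℕ} : Function.Injective (partMon (n := n)) := by
  intro l l' h
  apply Nat.Partition.ext
  ext k
  by_cases h1 : 0 < k ∧ k ≤ n
  · have := DFunLike.congr_fun h ⟨k - 1, by omega⟩
    simp only [partMon, Finsupp.equivFunOnFinite_symm_apply_apply] at this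
    rwa [Nat.sub_add_cancel h1.1] at this
  · have z : ∀ p : n.Partition, p.parts.count k = 0 := fun p =>
      Multiset.count_eq_zero.2 fun hk => h1 ⟨p.parts_pos hk, p.le_of_mem_parts hk⟩
    rw [z, z]

theorem esymmPart_eq {σ R : Type} [Fintype σ] [CommRing R] {n : ℕ} (l : n.Partition) :
    esymmPart σ R l = ∏ i : Fin n, esymm σ R (i.val + 1) ^ partMon l i := by
  classical
  rw [esymmPart, Finset.prod_multiset_map_count]
  have h1 : ∏ i : Fin n, esymm σ R (i.val + 1) ^ partMon l i =
      ∏ i ∈ range n, esymm σ R (i + 1) ^ l.parts.count (i + 1) :=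
    Fin.prod_univ_eq_prod_range (fun i => esymm σ R (i + 1) ^ l.parts.count (i + 1)) n
  have h2 : ∏ i ∈ range n, esymm σ R (i + 1) ^ l.parts.count (i + 1) =
      ∏ k ∈ (range n).image (· + 1), esymm σ R k ^ l.parts.count k :=
    (Finset.prod_image (f := fun k => esymm σ R k ^ l.parts.count k)
      fun _ _ _ _ h => Nat.succ_injective h).symm
  rw [h1, h2]
  refine Finset.prod_subset (fun k hk => ?_) fun k _ hk => ?_
  · have hk' := Multiset.mem_toFinset.1 hk
    have := l.parts_pos hk'
    have := l.le_of_mem_parts hk'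
    exact Finset.mem_image.2 ⟨k - 1, Finset.mem_range.2 (by omega), by omega⟩
  · rw [Multiset.count_eq_zero.2 fun h => hk (Multiset.mem_toFinset.2 h), pow_zero]

theorem esymm_unique {R : Type} [CommRing R] {n N : ℕ} (hN : n ≤ N) (c c' : n.Partition → R)
    (h : ∑ l : n.Partition, C (c l) * esymmPart (Fin N) R l =
      ∑ l : n.Partition, C (c' l) * esymmPart (Fin N) R l) : c = c' := by
  classical
  have key : ∀ d : n.Partition → R,
      ((esymmAlgHom (Fin N) R n (∑ l, monomial (partMon l) (d l)) :
        symmetricSubalgebra (Fin N) R) : MvPolynomial (Fin N) R) =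
      ∑ l : n.Partition, C (d l) * esymmPart (Fin N) R l := by
    intro d
    rw [esymmAlgHom_apply, map_sum]
    refine Finset.sum_congr rfl fun l _ => ?_
    rw [aeval_monomial, esymmPart_eq, Finsupp.prod_fintype _ _ (by simp)]
    rfl
  have e := esymmAlgHom_injective R (σ := Fin N) (n := n) (by simpa using hN)
    (Subtype.ext ((key c).trans (h.trans (key c').symm)))
  funext l
  have := congrArg (coeff (partMon l)) e
  simpa [coeff_sum, coeff_monomial, partMon_inj.eq_iff] using this

end
end Vale.Agent.P066.G
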