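import Vale.Agent.P066.G.Final
import Vale.Agent.P066.G.Uniq
import Vale.Agent.P066.Stmt

/-! P066: passage from finitely many to countably many variables. -/

namespace Vale.Agent.P066.G
open Finset
noncomputable section
open Classical

theorem kill_elem (N k : ℕ) : MvPowerSeries.killCompl Fin.valEmbedding (elemSym k) =
    ((MvPolynomial.esymm (Fin N) (Polynomial ℤ) k : MvPolynomial (Fin N) (Polynomial ℤ)) :
      MvPowerSeries (Fin N) (Polynomial ℤ)) := by
  ext1 μ
  rw [MvPowerSeries.coeff_killCompl, MvPolynomial.coeff_coe, MvPolynomial.esymm_eq_sum_monomial,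
    MvPolynomial.coeff_sum]
  change (if _ then _ else _) = _
  have key : ∀ t : Finset (Fin N), ∀ i, (∑ j ∈ t, Finsupp.single j 1 : Fin N →₀ ℕ) i =
      if i ∈ t then 1 else 0 := by
    intro t i
    simp [Finsupp.finsetSum_apply, Finsupp.single_apply]
  have hs : ((Finsupp.embDomain Fin.valEmbedding μ).sum fun _ m => m) = ∑ i, μ i := by
    rw [Finsupp.sum_embDomain, Finsupp.sum_fintype _ _ (by simp)]
  have h1 : (∀ i, Finsupp.embDomain Fin.valEmbedding μ i ≤ 1) ↔ ∀ i, μ i ≤ 1 := by
    constructor
    · intro h i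
      have := h (Fin.valEmbedding i)
      rwa [Finsupp.embDomain_apply_self] at this
    · intro h i
      by_cases hi : i ∈ Set.range (Fin.valEmbedding (n := N))
      · obtain ⟨j, rfl⟩ := hi
        rw [Finsupp.embDomain_apply_self]
        exact h j
      · rw [Finsupp.embDomain_of_notMem_range _ _ _ hi]
        omega
  rw [hs]
  simp only [MvPolynomial.coeff_monomial]
  split_ifs with hc
  · have hμ : ∑ j ∈ μ.support, Finsupp.single j 1 = μ := by
      ext i
      rw [key]
      have := h1.1 hc.1 i
      split_ifs with h2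
      · have := Finsupp.mem_support_iff.1 h2
        omega
      · exact (Finsupp.notMem_support_iff.1 h2).symm
    rw [Finset.sum_eq_single μ.support]
    · rw [if_pos hμ]
    · intro t _ ht
      rw [if_neg]
      intro e
      apply ht
      ext i
      rw [Finsupp.mem_support_iff, ← e, key]
      simp
    · intro hn
      exfalso
      apply hn
      rw [Finset.mem_powersetCard]
      refine ⟨subset_univ _, ?_⟩
      rw [← hc.2]
      have e : ∀ i, μ i = if i ∈ μ.support then 1 else 0 := fun i => by rw [← key, hμ]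
      rw [Finset.sum_congr rfl fun i _ => e i, Finset.sum_ite_mem, univ_inter, card_eq_sum_ones]
  · symm
    refine Finset.sum_eq_zero fun t ht => if_neg fun e => hc ⟨h1.2 fun i => ?_, ?_⟩
    · rw [← e, key]
      split_ifs <;> omega
    · rw [← e, ← (Finset.mem_powersetCard.1 ht).2]
      simp [key]

theorem kill_chrom {n : ℕ} (h : Fin n → Fin n) (N : ℕ) :
    MvPowerSeries.killCompl Fin.valEmbedding (chromaticQSym h) =
      ((chrom h N : MvPolynomial (Fin N) (Polynomial ℤ)) : MvPowerSeries (Fin N) (Polynomial ℤ)) := by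
  ext1 μ
  rw [MvPowerSeries.coeff_killCompl, MvPolynomial.coeff_coe, chrom, MvPolynomial.coeff_sum]
  have hmon : ∀ f : Fin n → Fin N, (∏ a, MvPolynomial.X (f a) : MvPolynomial (Fin N) (Polynomial ℤ)) =
      MvPolynomial.monomial (∑ a, Finsupp.single (f a) 1) 1 := fun f => by
    rw [MvPolynomial.monomial_sum_one]; rfl
  simp only [hmon, MvPolynomial.C_mul_monomial, mul_one, MvPolynomial.coeff_monomial]
  rw [← Finset.sum_filter, Finset.filter_filter]
  let e : (Fin n → Fin N) → Fin n → ℕ := fun f a => (f a).val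
  have he : Function.Injective e := fun f g hfg => funext fun a => Fin.ext (congrFun hfg a)
  have hemb : ∀ f : Fin n → Fin N, ∑ a, Finsupp.single (e f a) 1 =
      Finsupp.embDomain Fin.valEmbedding (∑ a, Finsupp.single (f a) 1 : Fin N →₀ ℕ) := fun f => by
    rw [Finsupp.embDomain_eq_mapDomain, Finsupp.mapDomain_finsetSum]
    simp [Finsupp.mapDomain_single, e]
  have hset : {f : Fin n → ℕ | IsProper h f ∧
      ∑ a, Finsupp.single (f a) 1 = Finsupp.embDomain Fin.valEmbedding μ} =
      ((univ.filter fun f : Fin n → Fin N => Proper h f ∧ ∑ a, Finsupp.single (f a) 1 = μ).image e :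
        Finset _) := by
    ext f
    simp only [Set.mem_ofPred_eq, coe_image, coe_filter, mem_univ, true_and, Set.mem_image]
    constructor
    · rintro ⟨h1, h2⟩
      have hlt : ∀ a, f a < N := fun a => by
        by_contra hc
        have z : Finsupp.embDomain Fin.valEmbedding μ (f a) = 0 :=
          Finsupp.embDomain_of_notMem_range _ _ _ (by rintro ⟨j, hj⟩; exact hc (hj ▸ j.2))
        rw [← h2, Finsupp.finsetSum_apply, Finset.sum_eq_zero_iff] at z
        simpa using z a (mem_univ a)
      refine ⟨fun a => ⟨f a, hlt a⟩, ⟨fun i j hij e => h1 i j hij (congrArg Fin.val e), ?_⟩, rfl⟩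
      apply Finsupp.embDomain_injective Fin.valEmbedding
      rw [← hemb, ← h2]
    · rintro ⟨g, ⟨h1, h2⟩, rfl⟩
      exact ⟨fun i j hij e => h1 i j hij (Fin.ext e), by rw [hemb, h2]⟩
  change ∑ᶠ f ∈ _, _ = _
  rw [hset, finsum_mem_coe_finset, Finset.sum_image fun _ _ _ _ hfg => he hfg]
  refine Finset.sum_congr rfl fun f _ => ?_
  rw [ascents, asc, Nat.card_eq_fintype_card, Fintype.card_subtype]
  refine congrArg _ (congrArg _ ?_)
  ext p
  simp only [mem_filter, mem_univ, true_and]
  rfl

theorem kill_rhs {n : ℕ} (c : n.Partition → Polynomial ℤ) (N : ℕ) :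
    MvPowerSeries.killCompl (Fin.valEmbedding (n := N))
      (∑ l : n.Partition, MvPowerSeries.C (c l) * (l.parts.map elemSym).prod) =
      ((∑ l : n.Partition, MvPolynomial.C (c l) * MvPolynomial.esymmPart (Fin N) (Polynomial ℤ) l :
        MvPolynomial (Fin N) (Polynomial ℤ)) : MvPowerSeries (Fin N) (Polynomial ℤ)) := by
  rw [map_sum, ← MvPolynomial.coeToMvPowerSeries.ringHom_apply, map_sum]
  refine Finset.sum_congr rfl fun l _ => ?_
  rw [map_mul, map_mul, MvPowerSeries.killCompl_C, MvPolynomial.esymmPart, map_multiset_prod,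
    map_multiset_prod, Multiset.map_map, Multiset.map_map,
    MvPolynomial.coeToMvPowerSeries.ringHom_apply, MvPolynomial.coe_C]
  refine congrArg _ (congrArg _ (Multiset.map_congr rfl fun k _ => ?_))
  exact kill_elem N k

theorem ext_kill {F G : MvPowerSeries ℕ (Polynomial ℤ)}
    (h : ∀ N, MvPowerSeries.killCompl (Fin.valEmbedding (n := N)) F =
      MvPowerSeries.killCompl (Fin.valEmbedding (n := N)) G) : F = G := by
  ext1 μ
  obtain ⟨N, hN⟩ := μ.support.bddAbove
  have hr : μ ∈ Set.range (Finsupp.embDomain (M := ℕ) (Fin.valEmbedding (n := N + 1))) := by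
    rw [Finsupp.mem_range_embDomain_iff]
    intro i hi
    exact ⟨⟨i, Nat.lt_succ_of_le (hN hi)⟩, rfl⟩
  obtain ⟨ν, rfl⟩ := hr
  rw [← MvPowerSeries.coeff_killCompl, ← MvPowerSeries.coeff_killCompl, h]

theorem sw_inf {n : ℕ} (h : Fin n → Fin n) (hm : Monotone h) (hi : ∀ i, i ≤ h i) :
    ∃ c : n.Partition → Polynomial ℤ,
      chromaticQSym h = ∑ l : n.Partition, MvPowerSeries.C (c l) * (l.parts.map elemSym).prod ∧
      (∀ c' : n.Partition → Polynomial ℤ, chromaticQSym h =
        ∑ l : n.Partition, MvPowerSeries.C (c' l) * (l.parts.map elemSym).prod → c' = c) ∧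
      ∀ l k, 0 ≤ (c l).coeff k := by
  obtain ⟨c, hc, he⟩ := sw h hm hi
  refine ⟨c, ext_kill fun N => by rw [kill_chrom, kill_rhs, he], fun c' h' => ?_, hc⟩
  refine esymm_unique (N := n) le_rfl c' c ?_
  rw [← he]
  apply MvPolynomial.coe_injective
  rw [← kill_rhs, ← h', kill_chrom]

end
end Vale.Agent.P066.G
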