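import Vale.Agent.P066.G.Escape

/-!
P066 part G, file LemL (TASK G6): attractor coefficients at good points.
Let `C0` be the cone at time `0`, `d = deg0 (y 0)`, `n = ∑ μ`, `R = max (deg0 a - n d) 0`,
`τ0 = (R+1) r m` (so `s τ0 i = (R+1) r`, `Time.per_mul`), `X = {k τ | τ < τ0}`, `Y = hamP C0 y μ`.
* `rho_zero`: `lam i (-j r) p = lam i 0 p - j rho i p ≤ 0` for all `j ≥ 0` (time `-j r m`) and
  `lam i ((R+1) r) p ≤ 0`, while `- lam i 0 p ≤ deg0 p ≤ R`.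
* `lemL`: `alpha = (phi σ g0 F0) a` for `σ = (ofHom (eta a)).lex ((ofHom (-∑ rho i)).lex zeta)`
  (`alpha_lex`), which is generic along `0` and negative on every `k τ` (`rho_kv`).  Apply `flow` with
  `d = 0`, `η = deg` of the seed at time `τ0` (`deg_kv_nonpos`, `Time.lt_of_lt`),
  `Z = {p ∈ P0, deg0 p ≤ R}`, `Q σ := ∀ x, deg0 x ≤ n d + R → (phi σ g0 F0) x = Y x`.
  End: `phi_step` iterated from `0` to `τ0`, `lo_of_pos`, `cj_one`, `hamP_fn_congr`, `hamP_loc` with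
  `emb = inl` (`q_high`, `frame_sub_mem`).  Step: `w = mid σ0 g0` has the same function as
  `mid σ0 gτ` for all `τ ≤ τ0` (`mid_step`, `InQ2_zero`), so it is supported in the submonoid
  `Q = ⨅ τ ≤ τ0, P τ`, and so is `c = (lo η w)⁻¹ * lo (-η) w`; `phi σ- = cj c (phi σ+)`.  Expand by
  `cj_expand_sum`: a contributing `b` has `deg0 b ≤ deg0 x`, so `phi σ+ b = Y b`; if nonzero, `b` is a sum
  of `y`s (`hamP_mem`) of degree `≥ n d`, and `ker_eqOn_one` (with `rho_zero`, `om_y`) shows that only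
  `b = x` contributes.
-/

namespace Vale.Agent.P066.G
open Vale.Agent.P066.S Finset
noncomputable section
open Classical

variable {N : Type} [AddCommGroup N] [QL N] {m r M : ℕ} {Mo : Model m r N} {T : Time m}

theorem lemL_s_mul (T : Time m) (j : ℤ) (i : Fin m) : T.s (j * m) i = j := by
  have := T.per_mul 0 j i
  rwa [zero_add, T.s_zero, zero_add] at this

theorem rho_zero {R : ℕ} {p : N}
    (hp : ∀ τ ≤ ((R : ℤ) + 1) * r * m, p ∈ (Mo.D T τ).C.P) (hd : (Mo.D T 0).C.deg p ≤ R)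
    (i : Fin m) : Mo.rho i p = 0 := by
  have hrm : (0 : ℤ) ≤ (r : ℤ) * m := by positivity
  have key : ∀ j : ℤ, j ≤ (R : ℤ) + 1 → Mo.lam i 0 p + j * Mo.rho i p ≤ 0 := by
    intro j hj
    have h1 : j * r * m ≤ ((R : ℤ) + 1) * r * m := by
      rw [mul_assoc, mul_assoc]
      exact mul_le_mul_of_nonneg_right hj hrm
    have h2 := Model.lam_nonpos (Mo := Mo) (s := T.s (j * r * m)) (hp _ h1) i
      (u := T.s (j * r * m) i) le_rfl (by omega)
    rw [lemL_s_mul] at h2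
    have h3 := Model.lam_shift_mul (Mo := Mo) i 0 j p
    rw [zero_add] at h3
    rwa [h3] at h2
  have h0 : (0 : ℤ) ≤ ((R : ℤ) + 1) * r * m := by positivity
  have h4 := Model.neg_lam_le (Mo := Mo) (s := T.s 0) (hp 0 h0) i
  rw [T.s_zero] at h4
  have h5 : -Mo.lam i 0 p ≤ R := h4.trans hd
  have h6 := key ((R : ℤ) + 1) le_rfl
  have h7 := key (-(|Mo.lam i 0 p| + 1)) (by have := abs_nonneg (Mo.lam i 0 p); omega)
  have h8 := neg_abs_le (Mo.lam i 0 p)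
  have h9 := abs_nonneg (Mo.lam i 0 p)
  rcases lt_trichotomy (Mo.rho i p) 0 with h | h | h
  · nlinarith
  · exact h
  · nlinarith

theorem lemL_const {α : Type} (f : ℤ → α) {τ0 : ℤ} (h : ∀ τ < τ0, f (τ + 1) = f τ) :
    ∀ τ ≤ τ0, f τ = f τ0 := by
  have key : ∀ j : ℕ, f (τ0 - j) = f τ0 := by
    intro j
    induction j with
    | zero => simp
    | succ j ih =>
      rw [← ih, ← h (τ0 - ((j + 1 : ℕ) : ℤ)) (by push_cast; omega)]
      congr 1
      push_cast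
      ring
  intro τ hτ
  have := key (τ0 - τ).toNat
  rwa [Int.toNat_of_nonneg (by omega), sub_sub_cancel] at this

omit [QL N] in
theorem lemL_deg {C : Cone N} {g0 b : N} {n : ℕ} (h : b - n • g0 ∈ C.P) :
    (n : ℤ) * C.deg g0 ≤ C.deg b := by
  have := C.deg_nonneg h
  rw [map_sub, map_nsmul, nsmul_eq_mul] at this
  omega

theorem lemL_y (j : Fin (m + 1)) : Mo.y j - Mo.y 0 ∈ (Mo.D T 0).C.P :=
  Model.frame_sub_mem (Mo := Mo) (T.s 0) (Sum.inl j)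

theorem lemL_fin (hr : 0 < r) (μ : Fin M → ℕ) (R : ℕ) {σ : Sg N} (hσ : Gen σ 0)
    (hX : ∀ τ < ((R : ℤ) + 1) * r * m, σ.neg (Mo.k T τ))
    (hP : ∀ p ∈ (Mo.D T (((R : ℤ) + 1) * r * m)).C.P, p ∈ σ.poss) {x : N}
    (hx : (Mo.D T 0).C.deg x ≤ (∑ c, μ c : ℕ) * (Mo.D T 0).C.deg (Mo.y 0) + R) :
    (phi σ (Mo.D T 0).g (Mo.F T μ 0)).fn x = (hamP (Mo.D T 0).C Mo.y μ).fn x := by
  have h0 : (0 : ℤ) ≤ ((R : ℤ) + 1) * r * m := by positivity
  have h1 := lemL_const (fun τ => (phi σ (Mo.D T τ).g (Mo.F T μ τ)).fn)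
    (fun τ hτ => phi_step hr μ τ hσ (hX τ hτ)) 0 h0
  have hlo : lo σ (Mo.D T (((R : ℤ) + 1) * r * m)).g = 1 :=
    lo_of_pos fun p hp => hP p ((Mo.D T _).g.supp p hp)
  have hs0 : T.s 0 = fun _ => 0 := funext T.s_zero
  have hq : ∀ (i : Fin m) (c : Fin r), (Mo.D T 0).C.deg (Mo.y 0) + ((R + 1 : ℕ) : ℤ) ≤
      (Mo.D T 0).C.deg (Mo.fr (T.s (((R : ℤ) + 1) * r * m)) (Sum.inr (i, c))) := by
    intro i c
    have := Model.q_high (Mo := Mo) hr i (R + 1) (u := T.s (((R : ℤ) + 1) * r * m) i + c)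
      (by rw [lemL_s_mul]; push_cast; omega)
    rw [← hs0] at this
    exact this
  have h2 := hamP_loc (C := (Mo.D T 0).C) (t := Mo.fr (T.s (((R : ℤ) + 1) * r * m)))
    (Function.Embedding.inl : Fin (m + 1) ↪ Ix m r) (d := (Mo.D T 0).C.deg (Mo.y 0)) (R := R)
    (by
      rintro (j | ⟨i, c⟩)
      · have := (Mo.D T 0).C.deg_nonneg (lemL_y (Mo := Mo) (T := T) j)
        rw [map_sub] at this
        change _ ≤ (Mo.D T 0).C.deg (Mo.y j)
        omega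
      · have := hq i c
        push_cast at this
        omega)
    (by
      rintro (j | ⟨i, c⟩) ha
      · exact absurd ⟨j, rfl⟩ ha
      · have := hq i c
        push_cast at this
        omega) μ hx
  have h3 : (phi σ (Mo.D T 0).g (Mo.F T μ 0)).fn =
      (hamP (Mo.D T 0).C (Mo.fr (T.s (((R : ℤ) + 1) * r * m))) μ).fn := by
    refine h1.trans ?_
    simp only [phi]
    rw [hlo, cj_one]
    exact hamP_fn_congr _ _ _ _
  rw [h3]
  exact h2

/-- classes orthogonal to the common kernel of the `rho i` -/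
def lemLQ (Mo : Model m r N) : AddSubmonoid N where
  carrier := {z | ∀ p, (∀ i, Mo.rho i p = 0) → om p z = 0}
  zero_mem' p _ := map_zero _
  add_mem' {a b} ha hb p hp := by
    have h1 := ha p hp
    have h2 := hb p hp
    change QL.om p (a + b) = 0
    rw [map_add]
    change om p a + om p b = 0
    omega

theorem lemL_step (hr : 0 < r) (μ : Fin M → ℕ) (R : ℕ) {σ0 : Sg N} {d : N} (hσ : Gen σ0 d)
    (hX : ∀ τ < ((R : ℤ) + 1) * r * m, σ0.neg (Mo.k T τ)) (τ1 τ2 : Sg N)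
    (H : ∀ x, (Mo.D T 0).C.deg x ≤ (∑ c, μ c : ℕ) * (Mo.D T 0).C.deg (Mo.y 0) + R →
      (phi (σ0.lex τ1) (Mo.D T 0).g (Mo.F T μ 0)).fn x = (hamP (Mo.D T 0).C Mo.y μ).fn x)
    {x : N} (hx : (Mo.D T 0).C.deg x ≤ (∑ c, μ c : ℕ) * (Mo.D T 0).C.deg (Mo.y 0) + R) :
    (phi (σ0.lex τ2) (Mo.D T 0).g (Mo.F T μ 0)).fn x = (hamP (Mo.D T 0).C Mo.y μ).fn x := by
  have h0 : (0 : ℤ) ≤ ((R : ℤ) + 1) * r * m := by positivity
  have h1 := lemL_const (fun τ => (mid σ0 (Mo.D T τ).g).fn)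
    (fun τ hτ => mid_step hr τ hσ (hX τ hτ))
  have hw : ∀ τ ≤ ((R : ℤ) + 1) * r * m,
      SuppIn (Mo.D T τ).C.P (mid σ0 (Mo.D T 0).g).fn := by
    intro τ hτ
    have e : (mid σ0 (Mo.D T 0).g).fn = (mid σ0 (Mo.D T τ).g).fn :=
      (h1 0 h0).trans (h1 τ hτ).symm
    rw [e]
    exact (mid σ0 (Mo.D T τ).g).supp
  obtain ⟨c, hc⟩ : ∃ c, c = (lo τ1 (mid σ0 (Mo.D T 0).g))⁻¹ * lo τ2 (mid σ0 (Mo.D T 0).g) :=
    ⟨_, rfl⟩
  have hcs : ∀ τ ≤ ((R : ℤ) + 1) * r * m, SuppIn (Mo.D T τ).C.P c.fn := by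
    intro τ hτ
    rw [hc]
    exact supp_mul (supp_inv (supp_lo (hw τ hτ) _)) (supp_lo (hw τ hτ) _)
  have he : phi (σ0.lex τ2) (Mo.D T 0).g (Mo.F T μ 0) =
      cj c (phi (σ0.lex τ1) (Mo.D T 0).g (Mo.F T μ 0)) := by
    rw [phi_lex, phi_lex, ← cj_mul_grp, hc, mul_inv_cancel_left]
  rw [he, cj_expand_sum c _ x {x}, Finset.sum_singleton, sub_self, (ker c x).at0, om_self, U_zero,
    mul_one, mul_one]
  · exact H x hx
  · intro b hb hk
    have h2 := (Mo.D T 0).C.deg_nonneg ((ker c b).supp _ hk)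
    rw [map_sub] at h2
    rw [H b (by omega)] at hb
    have h3 := lemL_deg (hamP_supp (fun j => lemL_y (Mo := Mo) (T := T) j) μ b hb)
    have h4 : b ∈ lemLQ Mo := hamP_mem (Q := lemLQ Mo) (fun j p hp => Mo.om_y p j hp) μ b hb
    have h5 := ker_eqOn_one (c := c) (b := b) (down_le (Mo.D T 0).C R)
      (fun p hp hcp => h4 p (rho_zero (fun τ hτ => hcs τ hτ p hcp) hp))
      (x := x - b) (by
        change (Mo.D T 0).C.deg (x - b) ≤ R
        rw [map_sub]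
        omega)
    rw [h5, Grp.one_fn] at hk
    have h6 : x - b = 0 := by
      by_contra hne
      exact hk (if_neg hne)
    exact Finset.mem_singleton.2 (sub_eq_zero.1 h6).symm

theorem lemL (hr : 0 < r) (μ : Fin M → ℕ) {a : N} (h : ∀ τ, om (Mo.k T τ) a ≤ 0) :
    alpha (Mo.D T 0).g (Mo.F T μ 0) a = (hamP (Mo.D T 0).C Mo.y μ).fn a := by
  obtain ⟨R, hR⟩ : ∃ R : ℕ,
      (Mo.D T 0).C.deg a ≤ (∑ c, μ c : ℕ) * (Mo.D T 0).C.deg (Mo.y 0) + R :=
    ⟨((Mo.D T 0).C.deg a - (∑ c, μ c : ℕ) * (Mo.D T 0).C.deg (Mo.y 0)).toNat, by omega⟩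
  have hX : ∀ τ < ((R : ℤ) + 1) * r * m,
      (Mo.D T (((R : ℤ) + 1) * r * m)).C.deg (Mo.k T τ) ≤ 0 := fun τ hτ =>
    Model.deg_kv_nonpos hr (T.lt_of_lt hτ)
  have main := flow (Mo.D T (((R : ℤ) + 1) * r * m)).C.deg 0 (map_zero _)
    {p | p ∈ (Mo.D T 0).C.P ∧ (Mo.D T 0).C.deg p ≤ R} ((Mo.D T 0).C.fin R)
    {x | ∃ τ < ((R : ℤ) + 1) * r * m, x = Mo.k T τ}
    (by rintro _ ⟨τ, hτ, rfl⟩; exact hX τ hτ)
    (fun σ => ∀ x, (Mo.D T 0).C.deg x ≤ (∑ c, μ c : ℕ) * (Mo.D T 0).C.deg (Mo.y 0) + R →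
      (phi σ (Mo.D T 0).g (Mo.F T μ 0)).fn x = (hamP (Mo.D T 0).C Mo.y μ).fn x)
    (by
      intro σ τ _ _ _ _ hag H x hx
      rw [← H x hx]
      refine (phi_loc hag fun b hb => ?_).symm
      have := lemL_deg (F_supp μ 0 b hb)
      omega)
    (by
      intro σ hσ hneg x hx
      refine lemL_fin hr μ R (gen_lex_zero hσ) (fun τ hτ => ?_) (fun p hp => ?_) hx
      · rw [Sg.lex_neg, Sg.ofHom_neg, Sg.ofHom_nul]
        rcases (hX τ hτ).lt_or_eq with h1 | h1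
        · exact Or.inl h1
        · exact Or.inr ⟨h1, hneg _ ⟨τ, hτ, rfl⟩⟩
      · rw [Sg.mem_poss, Sg.lex_pos, Sg.ofHom_pos]
        by_cases h0 : p = 0
        · exact Or.inl h0
        · exact Or.inr (Or.inl (Cone.pos _ p hp h0)))
    (by
      intro σ0 d _ h2 hneg H x hx
      exact lemL_step hr μ R (d := d) (fun z => (h2 z).trans InQ2_zero)
        (fun τ hτ => hneg _ ⟨τ, hτ, rfl⟩) _ _ H hx)
    ((Sg.ofHom (eta a)).lex ((Sg.ofHom (-∑ i, Mo.rho i)).lex QL.zeta))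
    (gen_lex_zero (gen_lex_zero gen_zeta))
    (by
      rintro _ ⟨τ, -, rfl⟩
      rw [Sg.lex_neg, Sg.lex_neg, Sg.ofHom_neg, Sg.ofHom_nul, Sg.ofHom_neg, eta_apply]
      rcases (h τ).lt_or_eq with h1 | h1
      · exact Or.inl h1
      · refine Or.inr ⟨h1, Or.inl ?_⟩
        rw [AddMonoidHom.neg_apply, AddMonoidHom.finsetSum_apply]
        simp [Model.rho_kv])
    a hR
  rw [← main, alpha_lex]

end
end Vale.Agent.P066.G
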