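import Vale.Agent.P066.S.M1
import Vale.Agent.P066.S.P2

/-!
P066 part G, file Seed (definitions final; lemmas = TASK G1).  Cluster seeds.
* `mem_closure_iff`: `AddSubmonoid.closure_induction`; `fin`: an element of degree `≤ r` has all
  coordinates `xi i p` in `[0, r]` and is determined by them.
* `inPos`: if some `e i` lies on the line of `d` it is the only one (apply the dual functionals,
  `InQ.symm`, `InQ.trans`, `InQ.hom`); take `pt (e i)` (`M_pt`), otherwise the empty family (`M_empty`).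
* `seed_mut`: `π = ∑ i ≠ i0, xi i`; `π (mu k x) = π x`; `Efn (mu k e) (mu k n) = Efn e n` by `mu_inj`,
  `mu_nsmul`, `Efn_nsmul`, `Efn_of_not`; reindex the sum by `ψ`.
-/

namespace Vale.Agent.P066.G
open Vale.Agent.P066.S
noncomputable section
open Classical

structure Seed (N : Type) [AddCommGroup N] (ι : Type) [Fintype ι] where
  e : ι → N
  xi : ι → N →+ ℤ
  dual_eq : ∀ i, xi i (e i) = 1
  dual_ne : ∀ i j, i ≠ j → xi i (e j) = 0

variable {N : Type} [AddCommGroup N] {ι : Type} [Fintype ι]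

theorem Seed.mem_closure_iff (S : Seed N ι) {x : N} :
    x ∈ AddSubmonoid.closure (Set.range S.e) ↔ ∃ c : ι → ℕ, x = ∑ i, c i • S.e i := by
  constructor
  · intro hx
    induction hx using AddSubmonoid.closure_induction with
    | mem x hx =>
      obtain ⟨i, rfl⟩ := hx
      refine ⟨fun j => if j = i then 1 else 0, ?_⟩
      rw [Finset.sum_eq_single i]
      · simp
      · intro j _ hj
        simp [hj]
      · intro hc
        exact absurd (Finset.mem_univ _) hc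
    | zero => exact ⟨0, by simp⟩
    | add x y _ _ hx hy =>
      obtain ⟨c, rfl⟩ := hx
      obtain ⟨d, rfl⟩ := hy
      exact ⟨c + d, by simp [add_smul, Finset.sum_add_distrib]⟩
  · rintro ⟨c, rfl⟩
    exact AddSubmonoid.sum_mem _ fun i _ =>
      AddSubmonoid.nsmul_mem _ (AddSubmonoid.subset_closure (Set.mem_range_self i)) _

theorem Seed.xi_comb (S : Seed N ι) (c : ι → ℕ) (j : ι) :
    S.xi j (∑ i, c i • S.e i) = c j := by
  rw [map_sum, Finset.sum_eq_single j]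
  · rw [map_nsmul, S.dual_eq]
    simp
  · intro i _ hi
    rw [map_nsmul, S.dual_ne j i (Ne.symm hi), smul_zero]
  · intro hc
    exact absurd (Finset.mem_univ _) hc

theorem Seed.deg_comb (S : Seed N ι) (c : ι → ℕ) :
    (∑ i, S.xi i) (∑ i, c i • S.e i) = ∑ i, (c i : ℤ) := by
  rw [AddMonoidHom.finsetSum_apply]
  exact Finset.sum_congr rfl fun j _ => S.xi_comb c j

theorem Seed.deg_pos (S : Seed N ι) (p : N) (hp : p ∈ AddSubmonoid.closure (Set.range S.e))
    (h0 : p ≠ 0) : 0 < (∑ i, S.xi i) p := by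
  obtain ⟨c, rfl⟩ := S.mem_closure_iff.1 hp
  rw [S.deg_comb]
  by_contra hc
  apply h0
  have h1 : ∑ i, (c i : ℤ) = 0 :=
    le_antisymm (not_lt.1 hc) (Finset.sum_nonneg fun i _ => Int.natCast_nonneg _)
  rw [Finset.sum_eq_zero_iff_of_nonneg fun i _ => Int.natCast_nonneg _] at h1
  refine Finset.sum_eq_zero fun i hi => ?_
  have h2 : c i = 0 := by exact_mod_cast h1 i hi
  rw [h2, zero_smul]

theorem Seed.deg_fin (S : Seed N ι) (r : ℤ) :
    {p | p ∈ AddSubmonoid.closure (Set.range S.e) ∧ (∑ i, S.xi i) p ≤ r}.Finite := by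
  have h1 : {c : ι → ℕ | ∀ i, c i ∈ Set.Iic r.toNat}.Finite :=
    Set.Finite.pi' fun _ => Set.finite_Iic _
  refine (h1.image fun c => ∑ i, c i • S.e i).subset ?_
  rintro p ⟨hp, hr⟩
  obtain ⟨c, rfl⟩ := S.mem_closure_iff.1 hp
  rw [S.deg_comb] at hr
  refine ⟨c, fun i => ?_, rfl⟩
  have h2 : (c i : ℤ) ≤ ∑ i, (c i : ℤ) :=
    Finset.single_le_sum (f := fun i => (c i : ℤ)) (fun i _ => Int.natCast_nonneg _)
      (Finset.mem_univ i)
  rw [Set.mem_Iic]
  omega

def Seed.cone (S : Seed N ι) : Cone N where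
  P := AddSubmonoid.closure (Set.range S.e)
  deg := ∑ i, S.xi i
  pos := S.deg_pos
  fin := S.deg_fin

def Seed.In (S : Seed N ι) (n : N) : K := ∑ i, Efn (S.e i) n

theorem Seed.e_mem (S : Seed N ι) (i : ι) : S.e i ∈ S.cone.P :=
  AddSubmonoid.subset_closure ⟨i, rfl⟩
theorem Seed.e_ne (S : Seed N ι) (i : ι) : S.e i ≠ 0 := by
  intro h
  have h1 := S.dual_eq i
  rw [h, map_zero] at h1
  exact zero_ne_one h1
theorem Seed.deg_apply (S : Seed N ι) (x : N) : S.cone.deg x = ∑ i, S.xi i x :=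
  AddMonoidHom.finsetSum_apply _ _ _
theorem Seed.xi_nonneg (S : Seed N ι) {p : N} (hp : p ∈ S.cone.P) (i : ι) : 0 ≤ S.xi i p := by
  obtain ⟨c, rfl⟩ := S.mem_closure_iff.1 hp
  rw [S.xi_comb]
  exact Int.natCast_nonneg _
theorem Seed.xi_le_deg (S : Seed N ι) {p : N} (hp : p ∈ S.cone.P) (i : ι) :
    S.xi i p ≤ S.cone.deg p := by
  rw [S.deg_apply]
  exact Finset.single_le_sum (f := fun i => S.xi i p) (fun j _ => S.xi_nonneg hp j)
    (Finset.mem_univ i)
theorem Seed.In_supp (S : Seed N ι) : SuppIn S.cone.P S.In := by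
  intro n hn
  obtain ⟨i, _, hi⟩ := Finset.exists_ne_zero_of_sum_ne_zero hn
  obtain ⟨j, rfl⟩ := Efn_ne_zero hi
  exact AddSubmonoid.nsmul_mem _ (S.e_mem i) _

theorem seed_pi_comb (S : Seed N ι) (π : N →+ ℤ) (i0 : ι) (h0 : π (S.e i0) = 0)
    (h1 : ∀ i, i ≠ i0 → π (S.e i) = 1) (c : ι → ℕ) :
    π (∑ i, c i • S.e i) = ∑ i ∈ Finset.univ.erase i0, (c i : ℤ) := by
  rw [map_sum, ← Finset.add_sum_erase _ _ (Finset.mem_univ i0), map_nsmul, h0, smul_zero, zero_add]
  refine Finset.sum_congr rfl fun i hi => ?_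
  rw [map_nsmul, h1 i (Finset.ne_of_mem_erase hi)]
  simp

theorem seed_pi_nn (S : Seed N ι) (π : N →+ ℤ) (i0 : ι) (h0 : π (S.e i0) = 0)
    (h1 : ∀ i, i ≠ i0 → π (S.e i) = 1) : ∀ p ∈ S.cone.P, 0 ≤ π p := by
  intro p hp
  obtain ⟨c, rfl⟩ := S.mem_closure_iff.1 hp
  rw [seed_pi_comb S π i0 h0 h1]
  exact Finset.sum_nonneg fun i _ => Int.natCast_nonneg _

theorem seed_pi_zero (S : Seed N ι) (π : N →+ ℤ) (i0 : ι) (h0 : π (S.e i0) = 0)
    (h1 : ∀ i, i ≠ i0 → π (S.e i) = 1) :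
    ∀ p ∈ S.cone.P, π p = 0 → ∃ j : ℕ, p = j • S.e i0 := by
  intro p hp hz
  obtain ⟨c, rfl⟩ := S.mem_closure_iff.1 hp
  rw [seed_pi_comb S π i0 h0 h1,
    Finset.sum_eq_zero_iff_of_nonneg fun i _ => Int.natCast_nonneg _] at hz
  refine ⟨c i0, Finset.sum_eq_single i0 (fun i _ hi => ?_) fun hc => absurd (Finset.mem_univ _) hc⟩
  have h2 : c i = 0 := by exact_mod_cast hz i (Finset.mem_erase.2 ⟨hi, Finset.mem_univ _⟩)
  rw [h2, zero_smul]

theorem seed_inE (S : Seed N ι) (π : N →+ ℤ) (i0 : ι)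
    (h1 : ∀ i, i ≠ i0 → π (S.e i) = 1) (n : N) (hn : n ≠ 0) (hz : π n = 0) :
    S.In n = Efn (S.e i0) n := by
  refine Finset.sum_eq_single i0 (fun i _ hi => ?_) fun hc => absurd (Finset.mem_univ _) hc
  refine Efn_of_not fun j hj => hn ?_
  rw [hj, map_nsmul, h1 i hi] at hz
  have h2 : j = 0 := by simpa using hz
  rw [hj, h2, zero_smul]

theorem seed_Efn_zero (π : N →+ ℤ) {k n : N} (hk : π k = 0) (hn : 0 < π n) : Efn k n = 0 := by
  refine Efn_of_not fun j hj => ?_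
  rw [hj, map_nsmul, hk, smul_zero] at hn
  exact lt_irrefl _ hn

variable [QL N]

def Seed.diag (S : Seed N ι) : Diag N where
  C := S.cone
  In := S.In
  g := Classical.choose (exists_init S.cone S.In S.In_supp)
  init := Classical.choose_spec (exists_init S.cone S.In S.In_supp)

theorem Seed.inPos (S : Seed N ι) : InPos S.diag := by
  intro d _ _
  by_cases hex : ∃ i, InQ d (S.e i)
  · obtain ⟨i, hi⟩ := hex
    refine ⟨WT.pt (S.e i), pt_Fam (S.e_mem i) (S.e_ne i), fun _ => hi, fun n hn hq _ => ?_⟩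
    rw [M_pt (C := S.cone) (S.e_mem i) (S.e_ne i)]
    refine Finset.sum_eq_single i (fun j _ hj => ?_) fun hc => absurd (Finset.mem_univ _) hc
    refine Efn_of_not fun m hm => hn ?_
    have h1 := ((hi.symm (S.e_ne i)).trans hq).hom (S.xi j) (S.dual_ne j i hj)
    rw [hm, map_nsmul, S.dual_eq] at h1
    have h2 : m = 0 := by simpa using h1
    rw [hm, h2, zero_smul]
  · refine ⟨WT.empty N, empty_Fam, fun x => x.elim, fun n hn hq _ => ?_⟩
    rw [M_empty, dl, if_neg hn]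
    refine Finset.sum_eq_zero fun j _ => Efn_of_not fun m hm => hex ⟨j, hq.trans ⟨m, 1, ?_, ?_⟩⟩
    · intro h0
      have h2 : m = 0 := by exact_mod_cast h0
      rw [h2, zero_smul] at hm
      exact hn hm
    · rw [hm, one_smul, natCast_zsmul]

theorem seed_Efn_mu {k e : N} (he : e ≠ 0) (he' : mu k e ≠ 0) (n : N) :
    Efn (mu k e) (mu k n) = Efn e n := by
  by_cases hex : ∃ j : ℕ, n = j • e
  · obtain ⟨j, rfl⟩ := hex
    rw [mu_nsmul, Efn_nsmul he', Efn_nsmul he]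
  · rw [Efn_of_not fun j hj => hex ⟨j, hj⟩]
    refine Efn_of_not fun j hj => hex ⟨j, mu_inj k ?_⟩
    rw [hj, mu_nsmul]

theorem seed_mut (S S' : Seed N ι) (i0 : ι) (ψ : ι ≃ ι) (h0 : S'.e (ψ i0) = - S.e i0)
    (h : ∀ i, i ≠ i0 → S'.e (ψ i) = mu (S.e i0) (S.e i)) :
    ∃ π, Mut S.diag S'.diag (S.e i0) π := by
  let π : N →+ ℤ := ∑ i ∈ Finset.univ.erase i0, S.xi i
  have hp : ∀ x, π x = ∑ i ∈ Finset.univ.erase i0, S.xi i x := fun x =>
    AddMonoidHom.finsetSum_apply _ _ _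
  have a0 : π (S.e i0) = 0 := by
    rw [hp]
    exact Finset.sum_eq_zero fun i hi => S.dual_ne i i0 (Finset.ne_of_mem_erase hi)
  have a1 : ∀ i, i ≠ i0 → π (S.e i) = 1 := by
    intro i hi
    rw [hp, Finset.sum_eq_single i, S.dual_eq]
    · intro j _ hj
      exact S.dual_ne j i hj
    · intro hc
      exact absurd (Finset.mem_erase.2 ⟨hi, Finset.mem_univ _⟩) hc
  have amu : ∀ x, π (mu (S.e i0) x) = π x := by
    intro x
    rw [mu, map_add, map_zsmul, a0, smul_zero, add_zero]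
  have b0 : π (S'.e (ψ i0)) = 0 := by rw [h0, map_neg, a0, neg_zero]
  have b1 : ∀ j, j ≠ ψ i0 → π (S'.e j) = 1 := by
    intro j hj
    obtain ⟨i, rfl⟩ := ψ.surjective j
    have hi : i ≠ i0 := fun hc => hj (by rw [hc])
    rw [h i hi, amu, a1 i hi]
  refine ⟨π, S.e_ne i0, S.e_mem i0, ?_, a0, seed_pi_nn S π i0 a0 a1, seed_pi_nn S' π (ψ i0) b0 b1,
    seed_pi_zero S π i0 a0 a1, ?_, seed_inE S π i0 a1, ?_, ?_⟩
  · rw [← h0]
    exact S'.e_mem _
  · rw [← h0]
    exact seed_pi_zero S' π (ψ i0) b0 b1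
  · rw [← h0]
    exact seed_inE S' π (ψ i0) b1
  · intro n hn
    change ∑ j, Efn (S'.e j) (mu (S.e i0) n) = ∑ i, Efn (S.e i) n
    rw [← ψ.sum_comp]
    refine Finset.sum_congr rfl fun i _ => ?_
    by_cases hi : i = i0
    · rw [hi, seed_Efn_zero π b0 (by rw [amu]; exact hn), seed_Efn_zero π a0 hn]
    · have h2 := S'.e_ne (ψ i)
      rw [h i hi] at h2 ⊢
      exact seed_Efn_mu (S.e_ne i) h2 n

end
end Vale.Agent.P066.G
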